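import Vale.Agent.P102.Defs

/-!
P102: the covariance inequality for associated families.
-/

namespace Vale.Agent.P102

open MeasureTheory ProbabilityTheory Filter Topology

/-- `f` is bounded by `B` and Lipschitz in the coordinates in `s` only. -/
structure Cyl {ι : Type*} (s : Finset ι) (a B : ℝ) (f : (ι → ℝ) → ℝ) : Prop where
  bdd : ∀ x, |f x| ≤ B
  lip : ∀ x y, |f x - f y| ≤ a * ∑ i ∈ s, |x i - y i|

open Classical in
/-- extension by zero -/
noncomputable def ext {ι : Type*} (s : Finset ι) (x : s → ℝ) : ι → ℝ :=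
  fun i => if h : i ∈ s then x ⟨i, h⟩ else 0

/-- truncation -/
noncomputable def clamp (C x : ℝ) : ℝ := max (-C) (min C x)

theorem clamp_of_le {C x : ℝ} (h : |x| ≤ C) : clamp C x = x := by
  obtain ⟨h1, h2⟩ := abs_le.1 h
  rw [clamp, min_eq_right h2, max_eq_right h1]

theorem clamp_mono (C : ℝ) : Monotone (clamp C) := fun _ _ h =>
  max_le_max_left _ (min_le_min_left _ h)

theorem continuous_clamp (C : ℝ) : Continuous (clamp C) := by
  unfold clamp
  fun_prop

theorem abs_clamp_le {C : ℝ} (hC : 0 ≤ C) (x : ℝ) : |clamp C x| ≤ C := by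
  rw [abs_le, clamp]
  exact ⟨le_max_left _ _, max_le (by linarith) (min_le_left _ _)⟩

variable {ι Ω : Type*} [MeasurableSpace Ω] {μ : Measure Ω} [IsProbabilityMeasure μ]
  {X : ι → Ω → ℝ}

theorem ext_apply {s : Finset ι} (x : s → ℝ) {i : ι} (h : i ∈ s) : ext s x i = x ⟨i, h⟩ := by
  simp [ext, h]

omit [MeasurableSpace Ω] in
theorem Cyl.eq_ext {s : Finset ι} {a B : ℝ} {f : (ι → ℝ) → ℝ} (hf : Cyl s a B f) (x : ι → ℝ) :
    f x = f (ext s (fun i => x i)) := by
  have h := hf.lip x (ext s (fun i => x i))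
  have h0 : ∑ i ∈ s, |x i - ext s (fun i => x i) i| = 0 := by
    refine Finset.sum_eq_zero fun i hi => ?_
    rw [ext_apply _ hi, sub_self, abs_zero]
  rw [h0, mul_zero] at h
  exact sub_eq_zero.1 (abs_eq_zero.1 (le_antisymm h (abs_nonneg _)))

omit [MeasurableSpace Ω] in
theorem Cyl.cont {s : Finset ι} {a B : ℝ} {f : (ι → ℝ) → ℝ} (hf : Cyl s a B f) :
    Continuous fun x : s → ℝ => f (ext s x) := by
  rw [continuous_iff_continuousAt]
  intro x
  rw [ContinuousAt, tendsto_iff_norm_sub_tendsto_zero]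
  have hc : Continuous fun y : s → ℝ => a * ∑ i ∈ s, |ext s y i - ext s x i| := by
    refine continuous_const.mul (continuous_finsetSum _ fun i hi => ?_)
    have : (fun y : s → ℝ => |ext s y i - ext s x i|) = fun y => |y ⟨i, hi⟩ - x ⟨i, hi⟩| := by
      funext y
      rw [ext_apply _ hi, ext_apply _ hi]
    rw [this]
    fun_prop
  have h0 : a * ∑ i ∈ s, |ext s x i - ext s x i| = 0 := by simp
  refine squeeze_zero (fun _ => norm_nonneg _) (fun y => hf.lip _ _) ?_
  have := hc.tendsto x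
  rwa [h0] at this

theorem Cyl.measurable {s : Finset ι} {a B : ℝ} {f : (ι → ℝ) → ℝ} (hf : Cyl s a B f)
    (hX : ∀ i, Measurable (X i)) : Measurable fun ω => f (fun i => X i ω) := by
  have e : (fun ω => f (fun i => X i ω)) =
      (fun x : s → ℝ => f (ext s x)) ∘ fun ω (i : s) => X i.1 ω := by
    funext ω
    exact hf.eq_ext _
  rw [e]
  exact hf.cont.measurable.comp (measurable_pi_lambda _ fun i => hX i.1)

theorem memLp_of_bdd {u : Ω → ℝ} (hu : Measurable u) {C : ℝ} (hC : ∀ ω, |u ω| ≤ C) :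
    MemLp u 2 μ :=
  MemLp.of_bound hu.aestronglyMeasurable C (Eventually.of_forall fun ω => by
    rw [Real.norm_eq_abs]; exact hC ω)

/-- association in terms of the covariance -/
theorem cov_sign (hX : ∀ i, Measurable (X i)) (h : PosAssoc μ X ∨ NegAssoc μ X) :
    ∃ σ : ℝ, |σ| = 1 ∧ ∀ s t : Finset ι, Disjoint s t → ∀ (f : (s → ℝ) → ℝ) (g : (t → ℝ) → ℝ),
      Continuous f → Continuous g → Monotone f → Monotone g →
      (∃ C : ℝ, ∀ x, |f x| ≤ C) → (∃ C : ℝ, ∀ x, |g x| ≤ C) →
      0 ≤ σ * cov[fun ω => f (fun i => X i.1 ω), fun ω => g (fun i => X i.1 ω); μ] := by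
  have key : ∀ s t : Finset ι, ∀ (f : (s → ℝ) → ℝ) (g : (t → ℝ) → ℝ),
      Continuous f → Continuous g → (∃ C : ℝ, ∀ x, |f x| ≤ C) → (∃ C : ℝ, ∀ x, |g x| ≤ C) →
      cov[fun ω => f (fun i => X i.1 ω), fun ω => g (fun i => X i.1 ω); μ] =
        (∫ ω, f (fun i => X i.1 ω) * g (fun i => X i.1 ω) ∂μ) -
        (∫ ω, f (fun i => X i.1 ω) ∂μ) * (∫ ω, g (fun i => X i.1 ω) ∂μ) := by
    rintro s t f g hf hg ⟨C, hC⟩ ⟨D, hD⟩
    have m1 : Measurable fun ω => f (fun i => X i.1 ω) :=
      hf.measurable.comp (measurable_pi_lambda _ fun i => hX i.1)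
    have m2 : Measurable fun ω => g (fun i => X i.1 ω) :=
      hg.measurable.comp (measurable_pi_lambda _ fun i => hX i.1)
    rw [covariance_eq_sub (memLp_of_bdd m1 fun ω => hC _) (memLp_of_bdd m2 fun ω => hD _)]
    rfl
  rcases h with h | h
  · refine ⟨1, by simp, fun s t hst f g hf hg hf' hg' hC hD => ?_⟩
    rw [key s t f g hf hg hC hD, one_mul]
    linarith [h s t hst f g hf hg hf' hg' hC hD]
  · refine ⟨-1, by simp, fun s t hst f g hf hg hf' hg' hC hD => ?_⟩
    rw [key s t f g hf hg hC hD]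
    linarith [h s t hst f g hf hg hf' hg' hC hD]

/-- the monotone majorants of a Lipschitz function -/
theorem maj_props {s : Finset ι} {a B : ℝ} {f : (ι → ℝ) → ℝ} (hf : Cyl s a B f) (ha : 0 ≤ a)
    {C : ι → ℝ} (hC : ∀ i, 0 ≤ C i) (e : ℝ) (he : |e| = 1) :
    Continuous (fun x : s → ℝ => a * ∑ i, clamp (C i.1) (x i) +
      e * f (ext s fun i => clamp (C i.1) (x i))) ∧
    Monotone (fun x : s → ℝ => a * ∑ i, clamp (C i.1) (x i) +
      e * f (ext s fun i => clamp (C i.1) (x i))) ∧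
    ∃ D : ℝ, ∀ x : s → ℝ, |a * ∑ i, clamp (C i.1) (x i) +
      e * f (ext s fun i => clamp (C i.1) (x i))| ≤ D := by
  refine ⟨?_, ?_, ?_⟩
  · have h1 : Continuous fun x : s → ℝ => fun i : s => clamp (C i.1) (x i) :=
      continuous_pi fun i => (continuous_clamp _).comp (continuous_apply i)
    have h2 := hf.cont.comp h1
    refine Continuous.add (continuous_const.mul (continuous_finsetSum _ fun i _ =>
      (continuous_clamp _).comp (continuous_apply i))) (continuous_const.mul h2)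
  · intro x y hxy
    have h1 := hf.lip (ext s fun i => clamp (C i.1) (x i)) (ext s fun i => clamp (C i.1) (y i))
    have h2 : ∑ i ∈ s, |ext s (fun i => clamp (C i.1) (x i)) i -
        ext s (fun i => clamp (C i.1) (y i)) i| =
        ∑ i : s, (clamp (C i.1) (y i) - clamp (C i.1) (x i)) := by
      rw [← Finset.sum_coe_sort s]
      refine Finset.sum_congr rfl fun i _ => ?_
      rw [ext_apply _ i.2, ext_apply _ i.2, abs_sub_comm, abs_of_nonneg]
      exact sub_nonneg.2 (clamp_mono _ (hxy i))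
    rw [h2, Finset.sum_sub_distrib] at h1
    have h3 : |e * (f (ext s fun i => clamp (C i.1) (x i)) -
        f (ext s fun i => clamp (C i.1) (y i)))| ≤
        a * (∑ i : s, clamp (C i.1) (y i) - ∑ i : s, clamp (C i.1) (x i)) := by
      rw [abs_mul, he, one_mul]
      exact h1
    have h4 := (abs_le.1 h3).2
    show a * ∑ i, clamp (C i.1) (x i) + e * f (ext s fun i => clamp (C i.1) (x i)) ≤
      a * ∑ i, clamp (C i.1) (y i) + e * f (ext s fun i => clamp (C i.1) (y i))
    linarith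
  · refine ⟨a * ∑ i : s, C i.1 + B, fun x => ?_⟩
    refine (abs_add_le _ _).trans (add_le_add ?_ ?_)
    · rw [abs_mul, abs_of_nonneg ha]
      refine mul_le_mul_of_nonneg_left ((Finset.abs_sum_le_sum_abs _ _).trans
        (Finset.sum_le_sum fun i _ => abs_clamp_le (hC _) _)) ha
    · rw [abs_mul, he, one_mul]
      exact hf.bdd _

/-- the covariance inequality for Lipschitz functions of disjoint blocks -/
theorem cov_le (hX : ∀ i, Measurable (X i)) {C : ι → ℝ} (hC : ∀ i ω, |X i ω| ≤ C i)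
    (hA : PosAssoc μ X ∨ NegAssoc μ X) {s t : Finset ι} (hst : Disjoint s t)
    {a b B D : ℝ} (ha : 0 ≤ a) (hb : 0 ≤ b) {f g : (ι → ℝ) → ℝ} (hf : Cyl s a B f)
    (hg : Cyl t b D g) :
    |cov[fun ω => f (fun i => X i ω), fun ω => g (fun i => X i ω); μ]| ≤
      a * b * ∑ i ∈ s, ∑ j ∈ t, |cov[X i, X j; μ]| := by
  have hne : Nonempty Ω := nonempty_of_isProbabilityMeasure μ
  have hC0 : ∀ i, 0 ≤ C i := fun i => (abs_nonneg _).trans (hC i (Classical.arbitrary Ω))
  obtain ⟨σ, hσ, h⟩ := cov_sign hX hA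
  have lX : ∀ i, MemLp (X i) 2 μ := fun i => memLp_of_bdd (hX i) (hC i)
  set U : Ω → ℝ := fun ω => a * ∑ i ∈ s, X i ω with hU
  set V : Ω → ℝ := fun ω => b * ∑ i ∈ t, X i ω with hV
  set u : Ω → ℝ := fun ω => f (fun i => X i ω) with hu
  set v : Ω → ℝ := fun ω => g (fun i => X i ω) with hv
  have lU : MemLp U 2 μ := (memLp_finsetSum s fun i _ => lX i).const_mul a
  have lV : MemLp V 2 μ := (memLp_finsetSum t fun i _ => lX i).const_mul b
  have lu : MemLp u 2 μ := memLp_of_bdd (hf.measurable hX) fun ω => hf.bdd _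
  have lv : MemLp v 2 μ := memLp_of_bdd (hg.measurable hX) fun ω => hg.bdd _
  have rep : ∀ (r : Finset ι) (c E : ℝ) (w : (ι → ℝ) → ℝ) (_ : Cyl r c E w) (e : ℝ),
      (fun ω => (fun x : r → ℝ => c * ∑ i, clamp (C i.1) (x i) +
        e * w (ext r fun i => clamp (C i.1) (x i))) (fun i => X i.1 ω)) =
      fun ω => c * ∑ i ∈ r, X i ω + e * w (fun i => X i ω) := by
    intro r c E w hw e
    funext ω
    have e1 : (fun i : r => clamp (C i.1) (X i.1 ω)) = fun i : r => X i.1 ω :=
      funext fun i => clamp_of_le (hC _ _)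
    show c * ∑ i : r, clamp (C i.1) (X i.1 ω) + e * w (ext r fun i => clamp (C i.1) (X i.1 ω)) = _
    rw [e1, ← hw.eq_ext (fun i => X i ω), ← Finset.sum_coe_sort r]
  have key : ∀ e e' : ℝ, |e| = 1 → |e'| = 1 →
      0 ≤ σ * (cov[U, V; μ] + e' * cov[U, v; μ] + (e * cov[u, V; μ] +
        e * (e' * cov[u, v; μ]))) := by
    intro e e' he he'
    obtain ⟨c1, m1, b1⟩ := maj_props hf ha hC0 e he
    obtain ⟨c2, m2, b2⟩ := maj_props hg hb hC0 e' he'
    have h1 := h s t hst _ _ c1 c2 m1 m2 b1 b2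
    rw [rep s a B f hf e, rep t b D g hg e'] at h1
    have h2 : cov[fun ω => a * ∑ i ∈ s, X i ω + e * f (fun i => X i ω),
        fun ω => b * ∑ i ∈ t, X i ω + e' * g (fun i => X i ω); μ] =
        cov[U, V; μ] + e' * cov[U, v; μ] + (e * cov[u, V; μ] + e * (e' * cov[u, v; μ])) := by
      have e1 : (fun ω => a * ∑ i ∈ s, X i ω + e * f (fun i => X i ω)) = U + e • u := rfl
      have e2 : (fun ω => b * ∑ i ∈ t, X i ω + e' * g (fun i => X i ω)) = V + e' • v := rfl
      rw [e1, e2, covariance_add_left lU (lu.const_smul e) (lV.add (lv.const_smul e')),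
        covariance_add_right lU lV (lv.const_smul e'),
        covariance_add_right (lu.const_smul e) lV (lv.const_smul e'),
        covariance_smul_right, covariance_smul_left, covariance_smul_left, covariance_smul_right]
    rwa [h2] at h1
  have k1 := key 1 1 (by simp) (by simp)
  have k2 := key (-1) (-1) (by simp) (by simp)
  have k3 := key 1 (-1) (by simp) (by simp)
  have k4 := key (-1) 1 (by simp) (by simp)
  have hUV : cov[U, V; μ] = a * b * ∑ i ∈ s, ∑ j ∈ t, cov[X i, X j; μ] := by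
    have e1 : U = a • fun ω => ∑ i ∈ s, X i ω := rfl
    have e2 : V = b • fun ω => ∑ i ∈ t, X i ω := rfl
    rw [e1, e2, covariance_smul_left, covariance_smul_right,
      covariance_fun_sum_left' (fun i _ => lX i) (memLp_finsetSum t fun i _ => lX i)]
    have e3 : ∀ i ∈ s, cov[X i, fun ω => ∑ j ∈ t, X j ω; μ] = ∑ j ∈ t, cov[X i, X j; μ] :=
      fun i _ => covariance_fun_sum_right' (fun j _ => lX j) (lX i)
    rw [Finset.sum_congr rfl e3, mul_assoc]
  have h5 : |σ * cov[u, v; μ]| ≤ σ * cov[U, V; μ] := by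
    rw [abs_le]
    constructor
    · linarith
    · linarith
  have h6 : |cov[u, v; μ]| ≤ |cov[U, V; μ]| := by
    have h7 := h5.trans (le_abs_self _)
    rw [abs_mul, abs_mul, hσ, one_mul, one_mul] at h7
    exact h7
  refine h6.trans ?_
  rw [hUV, abs_mul, abs_of_nonneg (mul_nonneg ha hb)]
  refine mul_le_mul_of_nonneg_left ?_ (mul_nonneg ha hb)
  exact (Finset.abs_sum_le_sum_abs _ _).trans (Finset.sum_le_sum fun i _ =>
    Finset.abs_sum_le_sum_abs _ _)

end Vale.Agent.P102
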