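import Mathlib

/-!
P102: definitions.  Mixing of higher order for measure preserving actions of groups; association.
-/

namespace Vale.Agent.P102

open MeasureTheory Filter Topology

/-- A measure preserving action of the group `G` on `(Ω, μ)`. -/
structure IsAction {G Ω : Type*} [Group G] [MeasurableSpace Ω] (μ : Measure Ω)
    (T : G → Ω → Ω) : Prop where
  one : ∀ ω, T 1 ω = ω
  mul : ∀ g h ω, T (g * h) ω = T g (T h ω)
  mp : ∀ g, MeasurePreserving (T g) μ μ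

/-- Mixing of order `k`: `μ (⋂ T_{g_i}⁻¹ A_i) → ∏ μ (A_i)` when all quotients `g_i g_j⁻¹`,
`i ≠ j`, leave the finite subsets of `G`.  Mixing is mixing of order 2. -/
def MixingOrder {G Ω : Type*} [Group G] [MeasurableSpace Ω] (μ : Measure Ω)
    (T : G → Ω → Ω) (k : ℕ) : Prop :=
  ∀ A : Fin k → Set Ω, (∀ i, MeasurableSet (A i)) → ∀ ε : ℝ, 0 < ε → ∃ F : Finset G,
    ∀ g : Fin k → G, (∀ i j, i ≠ j → g i * (g j)⁻¹ ∉ F) →
      |μ.real (⋂ i, T (g i) ⁻¹' A i) - ∏ i, μ.real (A i)| < ε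

/-- The powers of an invertible transformation. -/
def powers {Ω : Type*} [MeasurableSpace Ω] (T : Ω ≃ᵐ Ω) (n : ℤ) : Ω → Ω :=
  fun ω => ((T.toEquiv : Equiv.Perm Ω) ^ n) ω

/-- Mixing of order `k` of one invertible transformation `T`: `μ (⋂ T^{-t_i} A_i) → ∏ μ (A_i)` when
`t_1 < ... < t_k` and the gaps tend to infinity. -/
def MixingOrderZ {Ω : Type*} [MeasurableSpace Ω] (μ : Measure Ω) (T : Ω ≃ᵐ Ω) (k : ℕ) : Prop :=
  ∀ A : Fin k → Set Ω, (∀ i, MeasurableSet (A i)) → ∀ ε : ℝ, 0 < ε → ∃ N : ℕ,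
    ∀ t : Fin k → ℤ, (∀ i j, i < j → t i + N < t j) →
      |μ.real (⋂ i, powers T (t i) ⁻¹' A i) - ∏ i, μ.real (A i)| < ε

/-- The family `X` is positively associated for pairs of disjoint finite blocks (weak
association; it is implied by association, i.e. by the FKG inequality). -/
def PosAssoc {ι Ω : Type*} [MeasurableSpace Ω] (μ : Measure Ω) (X : ι → Ω → ℝ) : Prop :=
  ∀ s t : Finset ι, Disjoint s t → ∀ (f : (s → ℝ) → ℝ) (g : (t → ℝ) → ℝ),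
    Continuous f → Continuous g → Monotone f → Monotone g →
    (∃ C : ℝ, ∀ x, |f x| ≤ C) → (∃ C : ℝ, ∀ x, |g x| ≤ C) →
    (∫ ω, f (fun i => X i.1 ω) ∂μ) * (∫ ω, g (fun i => X i.1 ω) ∂μ) ≤
      ∫ ω, f (fun i => X i.1 ω) * g (fun i => X i.1 ω) ∂μ

/-- The family `X` is negatively associated. -/
def NegAssoc {ι Ω : Type*} [MeasurableSpace Ω] (μ : Measure Ω) (X : ι → Ω → ℝ) : Prop :=
  ∀ s t : Finset ι, Disjoint s t → ∀ (f : (s → ℝ) → ℝ) (g : (t → ℝ) → ℝ),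
    Continuous f → Continuous g → Monotone f → Monotone g →
    (∃ C : ℝ, ∀ x, |f x| ≤ C) → (∃ C : ℝ, ∀ x, |g x| ≤ C) →
    (∫ ω, f (fun i => X i.1 ω) * g (fun i => X i.1 ω) ∂μ) ≤
      (∫ ω, f (fun i => X i.1 ω) ∂μ) * (∫ ω, g (fun i => X i.1 ω) ∂μ)

/-- The translates `ξ_j ∘ T_g` of the functions `ξ_j`. -/
def fam {G J Ω : Type*} (T : G → Ω → Ω) (ξ : J → Ω → ℝ) : G × J → Ω → ℝ :=
  fun p ω => ξ p.2 (T p.1 ω)

/-- The covariances of the functions `ξ_i ∘ T_g` and `ξ_j` tend to zero as `g → ∞`. -/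
def Decorrelated {G J Ω : Type*} [MeasurableSpace Ω] (μ : Measure Ω) (T : G → Ω → Ω)
    (ξ : J → Ω → ℝ) : Prop :=
  ∀ i j, Tendsto (fun g => ∫ ω, ξ i (T g ω) * ξ j ω ∂μ) cofinite
    (𝓝 ((∫ ω, ξ i ω ∂μ) * ∫ ω, ξ j ω ∂μ))

/-- The family `X` generates the σ-algebra of `Ω` modulo null sets. -/
def Generates {ι Ω : Type*} [MeasurableSpace Ω] (μ : Measure Ω) (X : ι → Ω → ℝ) : Prop :=
  ∀ A : Set Ω, MeasurableSet A → ∃ B : Set Ω,
    MeasurableSet[⨆ i, MeasurableSpace.comap (X i) inferInstance] B ∧ A =ᵐ[μ] B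

end Vale.Agent.P102
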