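import Vale.Agent.P102.Cov

/-!
P102: measurable sets are approximated by Lipschitz cylinder functions.
-/

namespace Vale.Agent.P102

open MeasureTheory ProbabilityTheory Filter Topology

variable {ι Ω : Type*} [mΩ : MeasurableSpace Ω] {μ : Measure Ω} [IsProbabilityMeasure μ]
  {X : ι → Ω → ℝ}

/-- the indicator function -/
noncomputable def ind (A : Set Ω) : Ω → ℝ := A.indicator fun _ => 1

omit mΩ in
theorem ind_nonneg (A : Set Ω) (ω : Ω) : 0 ≤ ind A ω :=
  Set.indicator_nonneg (fun _ _ => zero_le_one) ω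

omit mΩ in
theorem ind_le_one (A : Set Ω) (ω : Ω) : ind A ω ≤ 1 := by
  unfold ind
  by_cases h : ω ∈ A
  · rw [Set.indicator_of_mem h]
  · rw [Set.indicator_of_notMem h]
    exact zero_le_one

omit mΩ in
theorem abs_ind_le (A : Set Ω) (ω : Ω) : |ind A ω| ≤ 1 := by
  rw [abs_of_nonneg (ind_nonneg A ω)]
  exact ind_le_one A ω

theorem measurable_ind {A : Set Ω} (hA : MeasurableSet A) : Measurable (ind A) :=
  measurable_const.indicator hA

omit [IsProbabilityMeasure μ] in
theorem integral_ind {A : Set Ω} (hA : MeasurableSet A) : ∫ ω, ind A ω ∂μ = μ.real A := by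
  unfold ind
  rw [integral_indicator hA]
  simp

theorem integrable_bdd {u : Ω → ℝ} (hu : Measurable u) {C : ℝ} (hC : ∀ ω, |u ω| ≤ C) :
    Integrable u μ :=
  Integrable.of_bound hu.aestronglyMeasurable C (Eventually.of_forall fun ω => by
    rw [Real.norm_eq_abs]; exact hC ω)

variable (μ X) in
/-- approximable sets -/
def Good (A : Set Ω) : Prop :=
  MeasurableSet A ∧ ∀ ε : ℝ, 0 < ε → ∃ (s : Finset ι) (a : ℝ) (f : (ι → ℝ) → ℝ), 0 ≤ a ∧
    Cyl s a 1 f ∧ (∀ x, 0 ≤ f x) ∧ ∫ ω, |ind A ω - f (fun i => X i ω)| ∂μ ≤ ε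

omit mΩ in
theorem Cyl.mono {s t : Finset ι} {a b B : ℝ} {f : (ι → ℝ) → ℝ} (hf : Cyl s a B f) (hst : s ⊆ t)
    (hb : 0 ≤ b) (hab : a ≤ b) : Cyl t b B f := by
  refine ⟨hf.bdd, fun x y => (hf.lip x y).trans ?_⟩
  have h1 : ∑ i ∈ s, |x i - y i| ≤ ∑ i ∈ t, |x i - y i| :=
    Finset.sum_le_sum_of_subset_of_nonneg hst fun i _ _ => abs_nonneg _
  exact (mul_le_mul_of_nonneg_right hab (Finset.sum_nonneg fun i _ => abs_nonneg _)).trans
    (mul_le_mul_of_nonneg_left h1 hb)

omit mΩ in
theorem Cyl.mul [DecidableEq ι] {s t : Finset ι} {a b B D : ℝ} {f g : (ι → ℝ) → ℝ}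
    (hf : Cyl s a B f)
    (hg : Cyl t b D g) (ha : 0 ≤ a) (hb : 0 ≤ b) (hB : 0 ≤ B) (hD : 0 ≤ D) :
    Cyl (s ∪ t) (D * a + B * b) (B * D) (fun x => f x * g x) := by
  refine ⟨fun x => ?_, fun x y => ?_⟩
  · rw [abs_mul]
    exact mul_le_mul (hf.bdd x) (hg.bdd x) (abs_nonneg _) hB
  · have h1 : ∑ i ∈ s, |x i - y i| ≤ ∑ i ∈ s ∪ t, |x i - y i| :=
      Finset.sum_le_sum_of_subset_of_nonneg Finset.subset_union_left fun i _ _ => abs_nonneg _
    have h2 : ∑ i ∈ t, |x i - y i| ≤ ∑ i ∈ s ∪ t, |x i - y i| :=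
      Finset.sum_le_sum_of_subset_of_nonneg Finset.subset_union_right fun i _ _ => abs_nonneg _
    have e : f x * g x - f y * g y = (f x - f y) * g x + f y * (g x - g y) := by ring
    rw [e]
    refine (abs_add_le _ _).trans ?_
    rw [abs_mul, abs_mul, add_mul]
    refine add_le_add ?_ ?_
    · calc |f x - f y| * |g x| ≤ (a * ∑ i ∈ s, |x i - y i|) * D :=
            mul_le_mul (hf.lip x y) (hg.bdd x) (abs_nonneg _)
              (mul_nonneg ha (Finset.sum_nonneg fun i _ => abs_nonneg _))
        _ ≤ (a * ∑ i ∈ s ∪ t, |x i - y i|) * D :=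
            mul_le_mul_of_nonneg_right (mul_le_mul_of_nonneg_left h1 ha) hD
        _ = D * a * ∑ i ∈ s ∪ t, |x i - y i| := by ring
    · calc |f y| * |g x - g y| ≤ B * (b * ∑ i ∈ t, |x i - y i|) :=
            mul_le_mul (hf.bdd y) (hg.lip x y) (abs_nonneg _) hB
        _ ≤ B * (b * ∑ i ∈ s ∪ t, |x i - y i|) :=
            mul_le_mul_of_nonneg_left (mul_le_mul_of_nonneg_left h2 hb) hB
        _ = B * b * ∑ i ∈ s ∪ t, |x i - y i| := by ring

omit [IsProbabilityMeasure μ] in
theorem Good.compl {A : Set Ω} (h : Good μ X A) : Good μ X Aᶜ := by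
  refine ⟨h.1.compl, fun ε hε => ?_⟩
  obtain ⟨s, a, f, ha, hf, hf0, he⟩ := h.2 ε hε
  have hf1 : ∀ x, f x ≤ 1 := fun x => (le_abs_self _).trans (hf.bdd x)
  refine ⟨s, a, fun x => 1 - f x, ha, ⟨fun x => ?_, fun x y => ?_⟩, fun x => ?_, ?_⟩
  · rw [abs_le]
    constructor
    · linarith [hf1 x]
    · linarith [hf0 x]
  · have e : 1 - f x - (1 - f y) = -(f x - f y) := by ring
    rw [e, abs_neg]
    exact hf.lip x y
  · linarith [hf1 x]
  · refine le_trans (le_of_eq ?_) he
    congr 1
    funext ω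
    have e : ind Aᶜ ω = 1 - ind A ω := by
      unfold ind
      by_cases h : ω ∈ A
      · simp [h]
      · simp [h]
    rw [e, ← abs_neg]
    congr 1
    ring

theorem Good.inter (hX : ∀ i, Measurable (X i)) {A B : Set Ω} (h : Good μ X A)
    (h' : Good μ X B) : Good μ X (A ∩ B) := by
  classical
  refine ⟨h.1.inter h'.1, fun ε hε => ?_⟩
  obtain ⟨s, a, f, ha, hf, hf0, he⟩ := h.2 (ε / 2) (half_pos hε)
  obtain ⟨t, b, g, hb, hg, hg0, he'⟩ := h'.2 (ε / 2) (half_pos hε)
  refine ⟨s ∪ t, 1 * a + 1 * b, fun x => f x * g x, by positivity, ?_,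
    fun x => mul_nonneg (hf0 x) (hg0 x), ?_⟩
  · have := hf.mul hg ha hb zero_le_one zero_le_one
    rwa [one_mul (1 : ℝ)] at this
  · have m1 : Measurable fun ω => |ind A ω - f (fun i => X i ω)| := by
      have := ((measurable_ind h.1).sub (hf.measurable hX)).abs
      exact this
    have m2 : Measurable fun ω => |ind B ω - g (fun i => X i ω)| := by
      have := ((measurable_ind h'.1).sub (hg.measurable hX)).abs
      exact this
    have i1 : Integrable (fun ω => |ind A ω - f (fun i => X i ω)|) μ :=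
      integrable_bdd m1 (C := 2) fun ω => by
        rw [abs_abs]
        have h1 := abs_sub (ind A ω) (f fun i => X i ω)
        have h2 := abs_ind_le A ω
        have h3 := hf.bdd (fun i => X i ω)
        linarith
    have i2 : Integrable (fun ω => |ind B ω - g (fun i => X i ω)|) μ :=
      integrable_bdd m2 (C := 2) fun ω => by
        rw [abs_abs]
        have h1 := abs_sub (ind B ω) (g fun i => X i ω)
        have h2 := abs_ind_le B ω
        have h3 := hg.bdd (fun i => X i ω)
        linarith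
    calc ∫ ω, |ind (A ∩ B) ω - f (fun i => X i ω) * g (fun i => X i ω)| ∂μ
        ≤ ∫ ω, (|ind A ω - f (fun i => X i ω)| + |ind B ω - g (fun i => X i ω)|) ∂μ := by
          refine integral_mono_of_nonneg (Eventually.of_forall fun ω => abs_nonneg _) (i1.add i2)
            (Eventually.of_forall fun ω => ?_)
          have e : ind (A ∩ B) ω = ind A ω * ind B ω := by
            unfold ind
            by_cases h1 : ω ∈ A <;> by_cases h2 : ω ∈ B <;> simp [h1, h2]
          show |ind (A ∩ B) ω - f (fun i => X i ω) * g (fun i => X i ω)| ≤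
            |ind A ω - f (fun i => X i ω)| + |ind B ω - g (fun i => X i ω)|
          have e2 : ind (A ∩ B) ω - f (fun i => X i ω) * g (fun i => X i ω) =
            (ind A ω - f (fun i => X i ω)) * ind B ω +
              f (fun i => X i ω) * (ind B ω - g (fun i => X i ω)) := by rw [e]; ring
          rw [e2]
          refine (abs_add_le _ _).trans (add_le_add ?_ ?_)
          · rw [abs_mul]
            exact mul_le_of_le_one_right (abs_nonneg _) (abs_ind_le B ω)
          · rw [abs_mul]
            exact mul_le_of_le_one_left (abs_nonneg _) (hf.bdd _)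
      _ = ∫ ω, |ind A ω - f (fun i => X i ω)| ∂μ + ∫ ω, |ind B ω - g (fun i => X i ω)| ∂μ :=
          integral_add i1 i2
      _ ≤ ε / 2 + ε / 2 := add_le_add he he'
      _ = ε := add_halves ε

theorem Good.union (hX : ∀ i, Measurable (X i)) {A B : Set Ω} (h : Good μ X A)
    (h' : Good μ X B) : Good μ X (A ∪ B) := by
  have h1 := (h.compl.inter hX h'.compl).compl
  rwa [← Set.compl_union, compl_compl] at h1

omit [IsProbabilityMeasure μ] in
theorem Good.empty : Good μ X (∅ : Set Ω) := by
  refine ⟨MeasurableSet.empty, fun ε hε => ⟨∅, 0, fun _ => 0, le_rfl, ⟨fun x => ?_, fun x y => ?_⟩,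
    fun x => le_rfl, ?_⟩⟩
  · simp
  · simp
  · have : (fun ω : Ω => |ind (∅ : Set Ω) ω - 0|) = fun _ => 0 := by
      funext ω
      simp [ind]
    rw [this, integral_zero]
    exact hε.le

theorem Good.iUnion (hX : ∀ i, Measurable (X i)) {A : ℕ → Set Ω} (h : ∀ n, Good μ X (A n)) :
    Good μ X (⋃ n, A n) := by
  have hm : MeasurableSet (⋃ n, A n) := MeasurableSet.iUnion fun n => (h n).1
  have hacc : ∀ n, Good μ X (Set.accumulate A n) := by
    intro n
    induction n with
    | zero =>
      have : Set.accumulate A 0 = A 0 := by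
        ext ω
        simp [Set.accumulate]
      rw [this]
      exact h 0
    | succ n ih =>
      rw [Set.accumulate_succ]
      exact ih.union hX (h _)
  refine ⟨hm, fun ε hε => ?_⟩
  have ht : Tendsto (fun n => μ.real (Set.accumulate A n)) atTop (𝓝 (μ.real (⋃ n, A n))) := by
    have := (ENNReal.tendsto_toReal (measure_ne_top μ (⋃ n, A n))).comp
      (tendsto_measure_iUnion_accumulate (μ := μ) (f := A))
    exact this
  obtain ⟨n, hn⟩ := (ht.eventually (lt_mem_nhds (a := μ.real (⋃ n, A n) - ε / 2)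
    (by linarith))).exists
  obtain ⟨s, a, f, ha, hf, hf0, he⟩ := (hacc n).2 (ε / 2) (half_pos hε)
  refine ⟨s, a, f, ha, hf, hf0, ?_⟩
  set B := Set.accumulate A n with hB
  have hBm : MeasurableSet B := (hacc n).1
  have hsub : B ⊆ ⋃ n, A n := by
    intro ω hω
    obtain ⟨k, -, hk⟩ := Set.mem_accumulate.1 hω
    exact Set.mem_iUnion.2 ⟨k, hk⟩
  have m1 : Measurable fun ω => |ind B ω - f (fun i => X i ω)| := by
    have := ((measurable_ind hBm).sub (hf.measurable hX)).abs
    exact this
  have i1 : Integrable (fun ω => |ind B ω - f (fun i => X i ω)|) μ :=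
    integrable_bdd m1 (C := 2) fun ω => by
      rw [abs_abs]
      have h1 := abs_sub (ind B ω) (f fun i => X i ω)
      have h2 := abs_ind_le B ω
      have h3 := hf.bdd (fun i => X i ω)
      linarith
  have i2 : Integrable (fun ω => ind (⋃ n, A n) ω) μ :=
    integrable_bdd (measurable_ind hm) (abs_ind_le _)
  have i3 : Integrable (fun ω => ind B ω) μ := integrable_bdd (measurable_ind hBm) (abs_ind_le _)
  calc ∫ ω, |ind (⋃ n, A n) ω - f (fun i => X i ω)| ∂μ
      ≤ ∫ ω, ((ind (⋃ n, A n) ω - ind B ω) + |ind B ω - f (fun i => X i ω)|) ∂μ := by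
        refine integral_mono_of_nonneg (Eventually.of_forall fun ω => abs_nonneg _)
          ((i2.sub i3).add i1) (Eventually.of_forall fun ω => ?_)
        show |ind (⋃ n, A n) ω - f (fun i => X i ω)| ≤
          (ind (⋃ n, A n) ω - ind B ω) + |ind B ω - f (fun i => X i ω)|
        have h0 : 0 ≤ ind (⋃ n, A n) ω - ind B ω := by
          rw [sub_nonneg]
          exact Set.indicator_le_indicator_of_subset hsub (fun _ => zero_le_one) ω
        have e : ind (⋃ n, A n) ω - f (fun i => X i ω) =
          (ind (⋃ n, A n) ω - ind B ω) + (ind B ω - f (fun i => X i ω)) := by ring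
        rw [e]
        refine (abs_add_le _ _).trans ?_
        rw [abs_of_nonneg h0]
    _ = (μ.real (⋃ n, A n) - μ.real B) + ∫ ω, |ind B ω - f (fun i => X i ω)| ∂μ := by
        have e1 : ∫ ω, ((ind (⋃ n, A n) ω - ind B ω) + |ind B ω - f (fun i => X i ω)|) ∂μ =
          ∫ ω, (ind (⋃ n, A n) ω - ind B ω) ∂μ + ∫ ω, |ind B ω - f (fun i => X i ω)| ∂μ :=
          integral_add (i2.sub i3) i1
        have e2 : ∫ ω, (ind (⋃ n, A n) ω - ind B ω) ∂μ =
          ∫ ω, ind (⋃ n, A n) ω ∂μ - ∫ ω, ind B ω ∂μ := integral_sub i2 i3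
        rw [e1, e2, integral_ind hm, integral_ind hBm]
    _ ≤ ε / 2 + ε / 2 := add_le_add (by linarith) he
    _ = ε := add_halves ε

theorem Good.iic (hX : ∀ i, Measurable (X i)) (i : ι) (c : ℝ) :
    Good μ X (X i ⁻¹' Set.Iic c) := by
  have hm : MeasurableSet (X i ⁻¹' Set.Iic c) := hX i measurableSet_Iic
  refine ⟨hm, fun ε hε => ?_⟩
  let f : ℕ → (ι → ℝ) → ℝ := fun n x => max 0 (min 1 (1 - n * (x i - c)))
  have hf : ∀ n : ℕ, Cyl {i} (n : ℝ) 1 (f n) := by
    intro n
    refine ⟨fun x => ?_, fun x y => ?_⟩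
    · rw [abs_of_nonneg (le_max_left _ _)]
      exact max_le zero_le_one (min_le_left _ _)
    · rw [Finset.sum_singleton]
      have h1 : |max 0 (min 1 (1 - n * (x i - c))) - max 0 (min 1 (1 - n * (y i - c)))| ≤
          |(min 1 (1 - n * (x i - c))) - (min 1 (1 - n * (y i - c)))| :=
        (abs_max_sub_max_le_max _ _ _ _).trans (by simp)
      have h2 : |(min 1 (1 - n * (x i - c))) - (min 1 (1 - n * (y i - c)))| ≤
          |(1 - n * (x i - c)) - (1 - n * (y i - c))| :=
        (abs_min_sub_min_le_max _ _ _ _).trans (by simp)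
      refine (h1.trans h2).trans (le_of_eq ?_)
      have e : (1 - n * (x i - c)) - (1 - n * (y i - c)) = n * -(x i - y i) := by ring
      rw [e, abs_mul, abs_neg, abs_of_nonneg (Nat.cast_nonneg n)]
  have ht : Tendsto (fun n => ∫ ω, |ind (X i ⁻¹' Set.Iic c) ω - f n (fun i => X i ω)| ∂μ) atTop
      (𝓝 (∫ ω, (0 : ℝ) ∂μ)) := by
    refine tendsto_integral_of_dominated_convergence (fun _ => 2) (fun n => ?_)
      (integrable_const _) (fun n => Eventually.of_forall fun ω => ?_)
      (Eventually.of_forall fun ω => ?_)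
    · have := ((measurable_ind hm).sub ((hf n).measurable hX)).abs
      exact this.aestronglyMeasurable
    · rw [Real.norm_eq_abs, abs_abs]
      have h1 := abs_sub (ind (X i ⁻¹' Set.Iic c) ω) (f n fun i => X i ω)
      have h2 := abs_ind_le (X i ⁻¹' Set.Iic c) ω
      have h3 := (hf n).bdd (fun i => X i ω)
      linarith
    · rcases le_or_gt (X i ω) c with h | h
      · refine tendsto_const_nhds.congr fun n => ?_
        have h1 : ind (X i ⁻¹' Set.Iic c) ω = 1 :=
          Set.indicator_of_mem (show ω ∈ X i ⁻¹' Set.Iic c from h) _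
        have h2 : f n (fun i => X i ω) = 1 := by
          show max 0 (min 1 (1 - n * (X i ω - c))) = 1
          have h3 : 1 ≤ 1 - (n : ℝ) * (X i ω - c) := by
            have : (n : ℝ) * (X i ω - c) ≤ 0 :=
              mul_nonpos_of_nonneg_of_nonpos (Nat.cast_nonneg n) (by linarith)
            linarith
          rw [min_eq_left h3, max_eq_right zero_le_one]
        rw [h1, h2, sub_self, abs_zero]
      · have hω : ω ∉ X i ⁻¹' Set.Iic c := fun h' => absurd h' (not_le.2 h)
        have h1 : ind (X i ⁻¹' Set.Iic c) ω = 0 := Set.indicator_of_notMem hω _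
        refine tendsto_const_nhds.congr' ?_
        obtain ⟨N, hN⟩ := exists_nat_gt (1 / (X i ω - c))
        filter_upwards [eventually_ge_atTop N] with n hn
        have h2 : f n (fun i => X i ω) = 0 := by
          show max 0 (min 1 (1 - n * (X i ω - c))) = 0
          have h4 : 0 < X i ω - c := by linarith
          have h3 : 1 - (n : ℝ) * (X i ω - c) ≤ 0 := by
            rw [div_lt_iff₀ h4] at hN
            have : (N : ℝ) ≤ n := by exact_mod_cast hn
            nlinarith
          exact max_eq_left ((min_le_right _ _).trans h3)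
        rw [h1, h2, sub_self, abs_zero]
  rw [integral_zero] at ht
  obtain ⟨n, hn⟩ := (ht.eventually (gt_mem_nhds hε)).exists
  exact ⟨{i}, n, f n, Nat.cast_nonneg n, hf n, fun x => le_max_left _ _, hn.le⟩

/-- the σ-algebra of the approximable sets -/
@[instance_reducible]
def goodSpace (hX : ∀ i, Measurable (X i)) : MeasurableSpace Ω where
  MeasurableSet' := fun A => Good μ X A
  measurableSet_empty := Good.empty
  measurableSet_compl := fun _ h => h.compl
  measurableSet_iUnion := fun _ h => Good.iUnion hX h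

theorem comap_le_goodSpace (hX : ∀ i, Measurable (X i)) :
    (⨆ i, MeasurableSpace.comap (X i) inferInstance) ≤ goodSpace (μ := μ) hX := by
  refine iSup_le fun i => ?_
  have h1 : @Measurable Ω ℝ (goodSpace (μ := μ) hX) _ (X i) := by
    refine @measurable_of_Iic ℝ Ω _ _ _ (goodSpace (μ := μ) hX) _ _ _ (X i) fun c => ?_
    exact Good.iic hX i c
  exact h1.comap_le

/-- all measurable sets are approximable -/
theorem good_of_generates (hX : ∀ i, Measurable (X i)) (hgen : Generates μ X) {A : Set Ω}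
    (hA : MeasurableSet A) : Good μ X A := by
  obtain ⟨B, hB, hAB⟩ := hgen A hA
  have hB' : Good μ X B := comap_le_goodSpace hX B hB
  refine ⟨hA, fun ε hε => ?_⟩
  obtain ⟨s, a, f, ha, hf, hf0, he⟩ := hB'.2 ε hε
  refine ⟨s, a, f, ha, hf, hf0, le_trans (le_of_eq ?_) he⟩
  refine integral_congr_ae ?_
  have h1 : ind A =ᵐ[μ] ind B := indicator_ae_eq_of_ae_eq_set hAB
  filter_upwards [h1] with ω hω
  rw [hω]

end Vale.Agent.P102
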