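import Vale.Agent.P102.Main

/-!
P102: the case of one transformation.
-/

namespace Vale.Agent.P102

open MeasureTheory ProbabilityTheory Filter Topology

variable {Ω : Type*} [mΩ : MeasurableSpace Ω] {μ : Measure Ω}

theorem powers_mp {T : Ω ≃ᵐ Ω} (hT : MeasurePreserving T μ μ) (n : ℤ) :
    MeasurePreserving (powers T n) μ μ := by
  induction n using Int.induction_on with
  | zero =>
    have : powers T 0 = id := by
      funext ω
      simp [powers]
    rw [this]
    exact MeasurePreserving.id μ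
  | succ n ih =>
    have : powers T (n + 1) = powers T n ∘ T := by
      funext ω
      show ((T.toEquiv : Equiv.Perm Ω) ^ ((n : ℤ) + 1)) ω = _
      rw [zpow_add_one]
      rfl
    rw [this]
    exact ih.comp hT
  | pred n ih =>
    have : powers T (-n - 1) = powers T (-n) ∘ T.symm := by
      funext ω
      show ((T.toEquiv : Equiv.Perm Ω) ^ (-(n : ℤ) - 1)) ω = _
      rw [zpow_sub_one]
      rfl
    rw [this]
    exact ih.comp (hT.symm T)

/-- the action of the integers, written multiplicatively -/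
def act (T : Ω ≃ᵐ Ω) (g : Multiplicative ℤ) : Ω → Ω := powers T (Multiplicative.toAdd g)

theorem isAction_act {T : Ω ≃ᵐ Ω} (hT : MeasurePreserving T μ μ) : IsAction μ (act T) where
  one ω := by
    show ((T.toEquiv : Equiv.Perm Ω) ^ (0 : ℤ)) ω = ω
    simp
  mul g h ω := by
    show ((T.toEquiv : Equiv.Perm Ω) ^ (Multiplicative.toAdd g + Multiplicative.toAdd h)) ω = _
    rw [zpow_add]
    rfl
  mp g := powers_mp hT _

theorem mixingZ_of {T : Ω ≃ᵐ Ω} {k : ℕ} (h : MixingOrder μ (act T) k) : MixingOrderZ μ T k := by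
  intro A hA ε hε
  obtain ⟨F, hF⟩ := h A hA ε hε
  refine ⟨F.sup fun g => (Multiplicative.toAdd g).natAbs, fun t ht => ?_⟩
  refine hF (fun i => Multiplicative.ofAdd (t i)) fun i j hij hmem => ?_
  have h1 : (Multiplicative.toAdd (Multiplicative.ofAdd (t i) *
      (Multiplicative.ofAdd (t j))⁻¹)).natAbs ≤ F.sup fun g => (Multiplicative.toAdd g).natAbs :=
    Finset.le_sup (f := fun g => (Multiplicative.toAdd g).natAbs) hmem
  have h2 : Multiplicative.toAdd (Multiplicative.ofAdd (t i) * (Multiplicative.ofAdd (t j))⁻¹) =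
      t i - t j := by
    rw [toAdd_mul, toAdd_inv, toAdd_ofAdd, toAdd_ofAdd, sub_eq_add_neg]
  rw [h2] at h1
  rcases lt_or_gt_of_ne hij with h3 | h3
  · have := ht i j h3
    omega
  · have := ht j i h3
    omega

theorem mixing_of_Z {T : Ω ≃ᵐ Ω} (h : MixingOrderZ μ T 2) : MixingOrder μ (act T) 2 := by
  classical
  intro A hA ε hε
  obtain ⟨N, hN⟩ := h A hA ε hε
  obtain ⟨N', hN'⟩ := h ![A 1, A 0] (by
    intro i
    fin_cases i
    · exact hA 1
    · exact hA 0) ε hε
  refine ⟨(Finset.Icc (-(max N N' : ℤ)) (max N N' : ℤ)).image Multiplicative.ofAdd,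
    fun g hg => ?_⟩
  have h0 := hg 0 1 (by decide)
  have h1 : ¬ (-(max N N' : ℤ) ≤ Multiplicative.toAdd (g 0) - Multiplicative.toAdd (g 1) ∧
      Multiplicative.toAdd (g 0) - Multiplicative.toAdd (g 1) ≤ (max N N' : ℤ)) := by
    intro h2
    apply h0
    rw [Finset.mem_image]
    refine ⟨Multiplicative.toAdd (g 0) - Multiplicative.toAdd (g 1), Finset.mem_Icc.2 h2, ?_⟩
    rw [ofAdd_sub, ofAdd_toAdd, ofAdd_toAdd, div_eq_mul_inv]
  have hlt : Multiplicative.toAdd (g 0) + N < Multiplicative.toAdd (g 1) ∨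
      Multiplicative.toAdd (g 1) + N' < Multiplicative.toAdd (g 0) := by
    have h3 := le_max_left (N : ℤ) N'
    have h4 := le_max_right (N : ℤ) N'
    omega
  rcases hlt with h2 | h2
  · exact hN (fun i => Multiplicative.toAdd (g i)) fun i j hij => by
      fin_cases i <;> fin_cases j
      · exact absurd hij (lt_irrefl _)
      · exact h2
      · exact absurd hij (by decide)
      · exact absurd hij (lt_irrefl _)
  · have h3 := hN' ![Multiplicative.toAdd (g 1), Multiplicative.toAdd (g 0)] fun i j hij => by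
      fin_cases i <;> fin_cases j
      · exact absurd hij (lt_irrefl _)
      · exact h2
      · exact absurd hij (by decide)
      · exact absurd hij (lt_irrefl _)
    have e1 : (⋂ i : Fin 2, powers T ((![Multiplicative.toAdd (g 1),
        Multiplicative.toAdd (g 0)] : Fin 2 → ℤ) i) ⁻¹' (![A 1, A 0] : Fin 2 → Set Ω) i) =
        ⋂ i : Fin 2, act T (g i) ⁻¹' A i := by
      ext ω
      simp only [Set.mem_iInter, Fin.forall_fin_two, Set.mem_preimage]
      exact and_comm
    rw [e1, Fin.prod_univ_two] at h3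
    rw [Fin.prod_univ_two, mul_comm]
    exact h3

/-- the case of one transformation -/
theorem mainZ [IsProbabilityMeasure μ] {T : Ω ≃ᵐ Ω} (hT : MeasurePreserving T μ μ) {J : Type*}
    {ξ : J → Ω → ℝ} (hξ : ∀ j, Measurable (ξ j)) (hb : ∀ j, ∃ C : ℝ, ∀ ω, |ξ j ω| ≤ C)
    (hgen : Generates μ (fam (powers T) ξ))
    (hA : PosAssoc μ (fam (powers T) ξ) ∨ NegAssoc μ (fam (powers T) ξ))
    (hmix : MixingOrderZ μ T 2 ∨ Decorrelated μ (powers T) ξ) (k : ℕ) : MixingOrderZ μ T k := by
  have hact := isAction_act hT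
  have hdec : Decorrelated μ (act T) ξ := by
    rcases hmix with h | h
    · exact decor_of_mixing hact (mixing_of_Z h) hξ hb
    · exact h
  exact mixingZ_of (main (T := act T) hact hdec hξ hb hgen hA k)

end Vale.Agent.P102
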