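import Vale.Agent.P102.Mix

/-!
P102: the main theorem.
-/

namespace Vale.Agent.P102

open MeasureTheory ProbabilityTheory Filter Topology

section Shift

variable {G J : Type*} [Group G]

/-- translation of the coordinates -/
def tau (g : G) (x : G × J → ℝ) : G × J → ℝ := fun p => x (p.1 * g, p.2)

open Classical in
/-- translation of finite sets -/
noncomputable def sh (g : G) (s : Finset (G × J)) : Finset (G × J) :=
  s.image fun p => (p.1 * g, p.2)

theorem mem_sh {g : G} {s : Finset (G × J)} {q : G × J} :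
    q ∈ sh g s ↔ ∃ p ∈ s, (p.1 * g, p.2) = q := by
  classical
  unfold sh
  rw [Finset.mem_image]

theorem sum_sh (g : G) (s : Finset (G × J)) (w : G × J → ℝ) :
    ∑ q ∈ sh g s, w q = ∑ p ∈ s, w (p.1 * g, p.2) := by
  classical
  unfold sh
  refine Finset.sum_image fun p _ q _ h => ?_
  have h1 := congrArg Prod.fst h
  have h2 := congrArg Prod.snd h
  exact Prod.ext (mul_right_cancel h1) h2

theorem Cyl.tau {s : Finset (G × J)} {a B : ℝ} {f : (G × J → ℝ) → ℝ} (hf : Cyl s a B f) (g : G) :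
    Cyl (sh g s) a B (fun x => f (P102.tau g x)) := by
  refine ⟨fun x => hf.bdd _, fun x y => ?_⟩
  rw [sum_sh]
  exact hf.lip _ _

theorem prod_bound (k : ℕ) : ∀ (s : Fin k → Finset (G × J)) (a : Fin k → ℝ)
    (f : Fin k → (G × J → ℝ) → ℝ), (∀ i, 0 ≤ a i) → (∀ i, Cyl (s i) (a i) 1 (f i)) →
    ∃ A : ℝ, 0 ≤ A ∧ ∀ g : Fin k → G, ∃ S : Finset (G × J),
      (∀ q ∈ S, ∃ i, q ∈ sh (g i) (s i)) ∧ S.card ≤ ∑ i, (s i).card ∧
      Cyl S A 1 (fun x => ∏ i, f i (tau (g i) x)) := by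
  classical
  induction k with
  | zero =>
    intro s a f _ _
    refine ⟨0, le_rfl, fun g => ⟨∅, by simp, by simp, ⟨fun x => by simp, fun x y => by simp⟩⟩⟩
  | succ k ih =>
    intro s a f ha hf
    obtain ⟨A, hA, h⟩ := ih (fun i => s i.castSucc) (fun i => a i.castSucc)
      (fun i => f i.castSucc) (fun i => ha _) (fun i => hf _)
    refine ⟨1 * A + 1 * a (Fin.last k), by have := ha (Fin.last k); positivity, fun g => ?_⟩
    obtain ⟨S, hS, hc, hC⟩ := h fun i => g i.castSucc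
    refine ⟨S ∪ sh (g (Fin.last k)) (s (Fin.last k)), ?_, ?_, ?_⟩
    · intro q hq
      rcases Finset.mem_union.1 hq with h1 | h1
      · obtain ⟨i, hi⟩ := hS q h1
        exact ⟨i.castSucc, hi⟩
      · exact ⟨Fin.last k, h1⟩
    · rw [Fin.sum_univ_castSucc]
      refine (Finset.card_union_le _ _).trans (add_le_add hc ?_)
      exact Finset.card_image_le
    · have h1 := hC.mul ((hf (Fin.last k)).tau (g (Fin.last k))) hA (ha _) zero_le_one zero_le_one
      rw [one_mul (1 : ℝ)] at h1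
      simp only [Fin.prod_univ_castSucc]
      exact h1

end Shift

theorem prod_diff {α : Type*} (s : Finset α) (u v : α → ℝ) (hu : ∀ i, |u i| ≤ 1)
    (hv : ∀ i, |v i| ≤ 1) : |∏ i ∈ s, u i - ∏ i ∈ s, v i| ≤ ∑ i ∈ s, |u i - v i| := by
  classical
  induction s using Finset.induction_on with
  | empty => simp
  | insert j s hj ih =>
    rw [Finset.prod_insert hj, Finset.prod_insert hj, Finset.sum_insert hj]
    have e : u j * ∏ i ∈ s, u i - v j * ∏ i ∈ s, v i =
      (u j - v j) * ∏ i ∈ s, u i + v j * (∏ i ∈ s, u i - ∏ i ∈ s, v i) := by ring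
    have h1 : |∏ i ∈ s, u i| ≤ 1 := by
      rw [Finset.abs_prod]
      exact Finset.prod_le_one (fun i _ => abs_nonneg _) fun i _ => hu i
    rw [e]
    refine (abs_add_le _ _).trans (add_le_add ?_ ?_)
    · rw [abs_mul]
      exact mul_le_of_le_one_right (abs_nonneg _) h1
    · rw [abs_mul]
      exact (mul_le_of_le_one_left (abs_nonneg _) (hv j)).trans ih

section Main

variable {G J Ω : Type*} [Group G] [mΩ : MeasurableSpace Ω] {μ : Measure Ω}
  [IsProbabilityMeasure μ] {T : G → Ω → Ω} {ξ : J → Ω → ℝ}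

/-- covariances in the place of mixing -/
theorem decor_of_mixing (hT : IsAction μ T) (hmix : MixingOrder μ T 2)
    (hξ : ∀ j, Measurable (ξ j)) (hb : ∀ j, ∃ C : ℝ, ∀ ω, |ξ j ω| ≤ C) :
    Decorrelated μ T ξ := by
  intro i j
  obtain ⟨C, hC⟩ := hb i
  obtain ⟨D, hD⟩ := hb j
  have h1 := mix_fun hT hmix (hξ i) hC (hξ j) hD
  have h2 : (fun g => cov[fun ω => ξ i (T g ω), ξ j; μ]) = fun g =>
      ∫ ω, ξ i (T g ω) * ξ j ω ∂μ - (∫ ω, ξ i ω ∂μ) * ∫ ω, ξ j ω ∂μ := by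
    funext g
    have m1 : Measurable fun ω => ξ i (T g ω) := (hξ i).comp (hT.mp g).measurable
    rw [covariance_eq_sub (memLp_of_bdd m1 fun ω => hC _)
      (memLp_of_bdd (hξ j) hD), ← int_comp hT g (hξ i)]
    rfl
  rw [h2] at h1
  exact tendsto_sub_nhds_zero_iff.1 h1

theorem cov_tendsto (hT : IsAction μ T) (hdec : Decorrelated μ T ξ)
    (hξ : ∀ j, Measurable (ξ j)) (hb : ∀ j, ∃ C : ℝ, ∀ ω, |ξ j ω| ≤ C) (p q : G × J) :
    Tendsto (fun g => cov[fun ω => fam T ξ p (T g ω), fam T ξ q; μ]) cofinite (𝓝 0) := by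
  obtain ⟨C, hC⟩ := hb p.2
  obtain ⟨D, hD⟩ := hb q.2
  have h2 : (fun g => cov[fun ω => fam T ξ p (T g ω), fam T ξ q; μ]) = (fun g =>
      ∫ ω, ξ p.2 (T g ω) * ξ q.2 ω ∂μ - (∫ ω, ξ p.2 ω ∂μ) * ∫ ω, ξ q.2 ω ∂μ) ∘
      fun g => p.1 * g * q.1⁻¹ := by
    funext g
    have e1 : (fun ω => fam T ξ p (T g ω)) =
        fun ω => (fun ω => ξ p.2 (T (p.1 * g * q.1⁻¹) ω)) (T q.1 ω) := by
      funext ω
      show ξ p.2 (T p.1 (T g ω)) = ξ p.2 (T (p.1 * g * q.1⁻¹) (T q.1 ω))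
      rw [← hT.mul, ← hT.mul, inv_mul_cancel_right]
    have e2 : fam T ξ q = fun ω => ξ q.2 (T q.1 ω) := rfl
    have m1 : Measurable fun ω => ξ p.2 (T (p.1 * g * q.1⁻¹) ω) :=
      (hξ _).comp (hT.mp _).measurable
    rw [e1, e2]
    have e3 : cov[fun ω => (fun ω => ξ p.2 (T (p.1 * g * q.1⁻¹) ω)) (T q.1 ω),
        fun ω => ξ q.2 (T q.1 ω); μ] = cov[fun ω => ξ p.2 (T (p.1 * g * q.1⁻¹) ω), ξ q.2; μ] :=
      cov_comp hT q.1 m1 (hξ _)
    rw [e3, covariance_eq_sub (memLp_of_bdd m1 fun ω => hC _) (memLp_of_bdd (hξ _) hD),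
      int_comp hT _ (hξ p.2)]
    rfl
  rw [h2]
  refine (tendsto_sub_nhds_zero_iff.2 (hdec p.2 q.2)).comp ?_
  exact ((mul_left_injective q.1⁻¹).comp (mul_right_injective p.1)).tendsto_cofinite

omit [IsProbabilityMeasure μ] in
theorem tau_fam (hT : IsAction μ T) (g : G) (ω : Ω) :
    tau g (fun p => fam T ξ p ω) = fun p => fam T ξ p (T g ω) := by
  funext p
  show ξ p.2 (T (p.1 * g) ω) = ξ p.2 (T p.1 (T g ω))
  rw [hT.mul]

/-- the exceptional set -/
theorem exists_exc (hT : IsAction μ T) (hdec : Decorrelated μ T ξ)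
    (hξ : ∀ j, Measurable (ξ j)) (hb : ∀ j, ∃ C : ℝ, ∀ ω, |ξ j ω| ≤ C)
    {k : ℕ} (s : Fin k → Finset (G × J)) (t : Finset (G × J)) {δ : ℝ} (hδ : 0 < δ) :
    ∃ F : Finset G, ∀ g, g ∉ F → ∀ i : Fin k, ∀ p ∈ s i, ∀ q ∈ t,
      |cov[fun ω => fam T ξ p (T g ω), fam T ξ q; μ]| ≤ δ ∧ g ≠ p.1⁻¹ * q.1 := by
  have hev : ∀ᶠ g in (cofinite : Filter G), ∀ i : Fin k, ∀ p ∈ s i,
      ∀ q ∈ t, |cov[fun ω => fam T ξ p (T g ω), fam T ξ q; μ]| ≤ δ ∧
        g ≠ p.1⁻¹ * q.1 := by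
    rw [eventually_all]
    intro i
    rw [Finset.eventually_all]
    intro p _
    rw [Finset.eventually_all]
    intro q _
    have h1 := cov_tendsto hT hdec hξ hb p q
    rw [Metric.tendsto_nhds] at h1
    refine ((h1 δ hδ).mono fun g hg => ?_).and ?_
    · rw [dist_zero_right, Real.norm_eq_abs] at hg
      exact hg.le
    · exact (Set.finite_singleton (p.1⁻¹ * q.1)).compl_mem_cofinite
  rw [eventually_cofinite] at hev
  refine ⟨hev.toFinset, fun g hg => ?_⟩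
  rw [Set.Finite.mem_toFinset] at hg
  exact not_not.1 hg

/-- the covariances of the translated blocks -/
theorem pair_bound (hT : IsAction μ T) (hX : ∀ p, Measurable (fam T ξ p)) {δ : ℝ} {g h : G}
    {p q : G × J} (hpq : |cov[fun ω => fam T ξ p (T (g * h⁻¹) ω), fam T ξ q; μ]| ≤ δ ∧
      g * h⁻¹ ≠ p.1⁻¹ * q.1) :
    |cov[fam T ξ (p.1 * g, p.2), fam T ξ (q.1 * h, q.2); μ]| ≤ δ ∧
      ((p.1 * g, p.2) : G × J) ≠ (q.1 * h, q.2) := by
  obtain ⟨h2, h3⟩ := hpq
  constructor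
  · have e1 : fam T ξ (p.1 * g, p.2) =
        fun ω => (fun ω => fam T ξ p (T (g * h⁻¹) ω)) (T h ω) := by
      funext ω
      show ξ p.2 (T (p.1 * g) ω) = ξ p.2 (T p.1 (T (g * h⁻¹) (T h ω)))
      rw [← hT.mul, ← hT.mul, mul_assoc, inv_mul_cancel_right]
    have e2 : fam T ξ (q.1 * h, q.2) = fun ω => fam T ξ q (T h ω) := by
      funext ω
      show ξ q.2 (T (q.1 * h) ω) = ξ q.2 (T q.1 (T h ω))
      rw [hT.mul]
    have e3 : cov[fun ω => (fun ω => fam T ξ p (T (g * h⁻¹) ω)) (T h ω),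
        fun ω => fam T ξ q (T h ω); μ] =
        cov[fun ω => fam T ξ p (T (g * h⁻¹) ω), fam T ξ q; μ] :=
      cov_comp hT h ((hX p).comp (hT.mp (g * h⁻¹)).measurable) (hX q)
    rw [e1, e2, e3]
    exact h2
  · intro h4
    apply h3
    have h5 : p.1 * g = q.1 * h := congrArg Prod.fst h4
    rw [eq_inv_mul_iff_mul_eq, ← mul_assoc, h5, mul_inv_cancel_right]

/-- the covariance of a product with one more factor -/
theorem block_bound (hX : ∀ p, Measurable (fam T ξ p)) {C : G × J → ℝ}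
    (hXC : ∀ p ω, |fam T ξ p ω| ≤ C p)
    (hA : PosAssoc μ (fam T ξ) ∨ NegAssoc μ (fam T ξ)) {S S' : Finset (G × J)} {A b δ : ℝ}
    (hA0 : 0 ≤ A) (hb0 : 0 ≤ b) {P Q : (G × J → ℝ) → ℝ}
    (hP : Cyl S A 1 P) (hQ : Cyl S' b 1 Q)
    (hpair : ∀ p ∈ S, ∀ q ∈ S', |cov[fam T ξ p, fam T ξ q; μ]| ≤ δ ∧ p ≠ q) {N m : ℕ}
    (hN : S.card ≤ N) (hm : S'.card ≤ m) (hδ : 0 ≤ δ) :
    |cov[fun ω => P (fun p => fam T ξ p ω), fun ω => Q (fun p => fam T ξ p ω); μ]| ≤
      A * b * (N * m * δ) := by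
  have hdisj : Disjoint S S' := by
    rw [Finset.disjoint_left]
    intro p hp hq
    exact (hpair p hp p hq).2 rfl
  refine (cov_le hX hXC hA hdisj hA0 hb0 hP hQ).trans ?_
  refine mul_le_mul_of_nonneg_left ?_ (mul_nonneg hA0 hb0)
  calc ∑ i ∈ S, ∑ j ∈ S', |cov[fam T ξ i, fam T ξ j; μ]|
      ≤ ∑ i ∈ S, ∑ j ∈ S', δ :=
        Finset.sum_le_sum fun i hi => Finset.sum_le_sum fun j hj => (hpair i hi j hj).1
    _ = (S.card : ℝ) * (S'.card * δ) := by
        rw [Finset.sum_const, Finset.sum_const, nsmul_eq_mul, nsmul_eq_mul]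
    _ ≤ (N : ℝ) * (m * δ) := by
        have h1 : (S.card : ℝ) ≤ N := by exact_mod_cast hN
        have h2 : (S'.card : ℝ) ≤ m := by exact_mod_cast hm
        gcongr
    _ = N * m * δ := by ring

/-- the algebra of the induction step -/
theorem step_bound {P Q : Ω → ℝ} (mP : Measurable P) (mQ : Measurable Q) (bP : ∀ ω, |P ω| ≤ 1)
    (bQ : ∀ ω, |Q ω| ≤ 1) {R q ε : ℝ} (hq : ∫ ω, Q ω ∂μ = q) (hε : 0 < ε)
    (h1 : |cov[P, Q; μ]| ≤ ε / 4) (h2 : |∫ ω, P ω ∂μ - R| < ε / 2) :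
    |∫ ω, P ω * Q ω ∂μ - R * q| < ε := by
  have e5 : cov[P, Q; μ] = ∫ ω, P ω * Q ω ∂μ - (∫ ω, P ω ∂μ) * ∫ ω, Q ω ∂μ :=
    covariance_eq_sub (memLp_of_bdd mP bP) (memLp_of_bdd mQ bQ)
  have h7 : |q| ≤ 1 := by
    rw [← hq]
    exact abs_integral_le bQ
  rw [e5, hq] at h1
  have e8 : ∫ ω, P ω * Q ω ∂μ - R * q = (∫ ω, P ω * Q ω ∂μ - (∫ ω, P ω ∂μ) * q) +
    (∫ ω, P ω ∂μ - R) * q := by ring
  rw [e8]
  have h10 : |(∫ ω, P ω ∂μ - R) * q| ≤ ε / 2 := by
    rw [abs_mul]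
    calc |∫ ω, P ω ∂μ - R| * |q| ≤ |∫ ω, P ω ∂μ - R| * 1 :=
          mul_le_mul_of_nonneg_left h7 (abs_nonneg _)
      _ ≤ ε / 2 := by rw [mul_one]; exact h2.le
  calc _ ≤ ε / 4 + ε / 2 := (abs_add_le _ _).trans (add_le_add h1 h10)
    _ < ε := by linarith

theorem mix_prod (hT : IsAction μ T) (hdec : Decorrelated μ T ξ) (hξ : ∀ j, Measurable (ξ j))
    (hb : ∀ j, ∃ C : ℝ, ∀ ω, |ξ j ω| ≤ C)
    (hA : PosAssoc μ (fam T ξ) ∨ NegAssoc μ (fam T ξ)) (k : ℕ) :
    ∀ (s : Fin k → Finset (G × J)) (a : Fin k → ℝ) (f : Fin k → (G × J → ℝ) → ℝ),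
      (∀ i, 0 ≤ a i) → (∀ i, Cyl (s i) (a i) 1 (f i)) → ∀ ε : ℝ, 0 < ε → ∃ F : Finset G,
      ∀ g : Fin k → G, (∀ i j, i ≠ j → g i * (g j)⁻¹ ∉ F) →
        |∫ ω, ∏ i, f i (fun p => fam T ξ p (T (g i) ω)) ∂μ -
          ∏ i, ∫ ω, f i (fun p => fam T ξ p ω) ∂μ| < ε := by
  classical
  have hX : ∀ p, Measurable (fam T ξ p) := fun p => (hξ p.2).comp (hT.mp p.1).measurable
  choose C hC using id hb
  have hXC : ∀ (p : G × J) ω, |fam T ξ p ω| ≤ (fun p : G × J => C p.2) p := fun p ω => hC _ _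
  induction k with
  | zero =>
    intro s a f _ _ ε hε
    refine ⟨∅, fun g _ => ?_⟩
    simpa using hε
  | succ k ih =>
    intro s a f ha hf ε hε
    obtain ⟨F, hF⟩ := ih (fun i => s i.castSucc) (fun i => a i.castSucc)
      (fun i => f i.castSucc) (fun i => ha _) (fun i => hf _) (ε / 2) (half_pos hε)
    obtain ⟨A, hA0, hAb⟩ := prod_bound k (fun i => s i.castSucc) (fun i => a i.castSucc)
      (fun i => f i.castSucc) (fun i => ha _) (fun i => hf _)
    have haL := ha (Fin.last k)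
    obtain ⟨N, hN⟩ : ∃ N : ℕ, N = ∑ i : Fin k, (s i.castSucc).card := ⟨_, rfl⟩
    obtain ⟨m, hm⟩ : ∃ m : ℕ, m = (s (Fin.last k)).card := ⟨_, rfl⟩
    obtain ⟨Y, hY⟩ : ∃ Y : ℝ, Y = A * a (Fin.last k) * (N * m) := ⟨_, rfl⟩
    have hY0 : 0 ≤ Y := by rw [hY]; positivity
    have hδ0 : 0 < ε / (4 * (Y + 1)) := by positivity
    obtain ⟨F', hF'⟩ := exists_exc hT hdec hξ hb (fun i : Fin k => s i.castSucc)
      (s (Fin.last k)) hδ0
    refine ⟨F ∪ F', fun g hg => ?_⟩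
    have hg1 : ∀ i : Fin k, g i.castSucc * (g (Fin.last k))⁻¹ ∉ F' := fun i h' =>
      hg _ _ (Fin.castSucc_lt_last i).ne (Finset.mem_union_right _ h')
    have hg2 := hF (fun i => g i.castSucc) fun i j hij h' =>
      hg _ _ (fun h => hij (Fin.castSucc_injective k h)) (Finset.mem_union_left _ h')
    obtain ⟨S, hS, hSc, hSC⟩ := hAb fun i => g i.castSucc
    rw [← hN] at hSc
    have hS' : (sh (g (Fin.last k)) (s (Fin.last k))).card ≤ m := by
      rw [hm]
      exact Finset.card_image_le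
    have hpair : ∀ p' ∈ S, ∀ q' ∈ sh (g (Fin.last k)) (s (Fin.last k)),
        |cov[fam T ξ p', fam T ξ q'; μ]| ≤ ε / (4 * (Y + 1)) ∧ p' ≠ q' := by
      intro p' hp' q' hq'
      obtain ⟨i, hi⟩ := hS p' hp'
      obtain ⟨p, hp, rfl⟩ := mem_sh.1 hi
      obtain ⟨q, hq, rfl⟩ := mem_sh.1 hq'
      exact pair_bound hT hX (hF' _ (hg1 i) i p hp q hq)
    have hcov := block_bound hX hXC hA hA0 haL hSC ((hf (Fin.last k)).tau (g (Fin.last k)))
      hpair hSc hS' hδ0.le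
    have hfin : A * a (Fin.last k) * (N * m * (ε / (4 * (Y + 1)))) ≤ ε / 4 := by
      have e1 : A * a (Fin.last k) * (N * m * (ε / (4 * (Y + 1)))) = Y * (ε / (4 * (Y + 1))) := by
        rw [hY]
        ring
      rw [e1]
      calc Y * (ε / (4 * (Y + 1))) ≤ (Y + 1) * (ε / (4 * (Y + 1))) :=
            mul_le_mul_of_nonneg_right (by linarith) hδ0.le
        _ = ε / 4 := by field_simp
    have mf : ∀ i (h : G), Measurable fun ω => f i (fun p => fam T ξ p (T h ω)) := fun i h =>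
      ((hf i).measurable hX).comp (hT.mp h).measurable
    simp only [Fin.prod_univ_castSucc]
    refine step_bound (Finset.measurable_prod _ fun i _ => mf _ _) (mf _ _) (fun ω => ?_)
      (fun ω => (hf _).bdd _) (int_comp hT _ ((hf _).measurable hX)) hε ?_ hg2
    · rw [Finset.abs_prod]
      exact Finset.prod_le_one (fun i _ => abs_nonneg _) fun i _ => (hf _).bdd _
    · have e1 : (fun ω => ∏ i : Fin k, f i.castSucc (fun p => fam T ξ p (T (g i.castSucc) ω))) =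
          fun ω => ∏ i : Fin k, f i.castSucc (tau (g i.castSucc) fun p => fam T ξ p ω) := by
        funext ω
        refine Finset.prod_congr rfl fun i _ => ?_
        rw [tau_fam hT]
      have e2 : (fun ω => f (Fin.last k) (fun p => fam T ξ p (T (g (Fin.last k)) ω))) =
          fun ω => f (Fin.last k) (tau (g (Fin.last k)) fun p => fam T ξ p ω) := by
        funext ω
        rw [tau_fam hT]
      rw [e1, e2]
      exact hcov.trans hfin

/-- decorrelation implies mixing of all orders -/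
theorem main (hT : IsAction μ T) (hdec : Decorrelated μ T ξ) (hξ : ∀ j, Measurable (ξ j))
    (hb : ∀ j, ∃ C : ℝ, ∀ ω, |ξ j ω| ≤ C) (hgen : Generates μ (fam T ξ))
    (hA : PosAssoc μ (fam T ξ) ∨ NegAssoc μ (fam T ξ)) (k : ℕ) : MixingOrder μ T k := by
  have hX : ∀ p, Measurable (fam T ξ p) := fun p => (hξ p.2).comp (hT.mp p.1).measurable
  intro B hB ε hε
  set η : ℝ := ε / (3 * (k + 1)) with hη
  have hη0 : 0 < η := by positivity
  choose s a f ha hf hf0 he using fun i => (good_of_generates hX hgen (hB i)).2 η hη0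
  obtain ⟨F, hF⟩ := mix_prod hT hdec hξ hb hA k s a f ha hf (ε / 3) (by positivity)
  refine ⟨F, fun g hg => ?_⟩
  have h2 := hF g hg
  have mi : ∀ i, Measurable (ind (B i)) := fun i => measurable_ind (hB i)
  have mf : ∀ i, Measurable fun ω => f i (fun p => fam T ξ p ω) := fun i => (hf i).measurable hX
  have md : ∀ i, Measurable fun ω => |ind (B i) ω - f i (fun p => fam T ξ p ω)| := fun i => by
    have := ((mi i).sub (mf i)).abs
    exact this
  have bd : ∀ i ω, |(|ind (B i) ω - f i (fun p => fam T ξ p ω)|)| ≤ 2 := fun i ω => by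
    rw [abs_abs]
    have h1 := abs_sub (ind (B i) ω) (f i fun p => fam T ξ p ω)
    have h2 := abs_ind_le (B i) ω
    have h3 := (hf i).bdd (fun p => fam T ξ p ω)
    linarith
  -- first comparison
  have e1 : μ.real (⋂ i, T (g i) ⁻¹' B i) = ∫ ω, ∏ i, ind (B i) (T (g i) ω) ∂μ := by
    have hm : MeasurableSet (⋂ i, T (g i) ⁻¹' B i) :=
      MeasurableSet.iInter fun i => (hT.mp (g i)).measurable (hB i)
    rw [← integral_ind hm]
    congr 1
    funext ω
    by_cases h : ω ∈ ⋂ i, T (g i) ⁻¹' B i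
    · have h3 : ind (⋂ i, T (g i) ⁻¹' B i) ω = 1 := Set.indicator_of_mem h _
      rw [h3]
      refine (Finset.prod_eq_one fun i _ => ?_).symm
      have h7 : T (g i) ω ∈ B i := Set.mem_iInter.1 h i
      exact Set.indicator_of_mem h7 _
    · have h3 : ind (⋂ i, T (g i) ⁻¹' B i) ω = 0 := Set.indicator_of_notMem h _
      rw [h3]
      rw [Set.mem_iInter] at h
      push Not at h
      obtain ⟨i, hi⟩ := h
      have hi' : T (g i) ω ∉ B i := hi
      have h8 : ind (B i) (T (g i) ω) = 0 := Set.indicator_of_notMem hi' _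
      exact (Finset.prod_eq_zero (Finset.mem_univ i) h8).symm
  have h3 : |∫ ω, ∏ i, ind (B i) (T (g i) ω) ∂μ -
      ∫ ω, ∏ i, f i (fun p => fam T ξ p (T (g i) ω)) ∂μ| ≤ k * η := by
    have m1 : Measurable fun ω => ∏ i, ind (B i) (T (g i) ω) :=
      Finset.measurable_prod _ fun i _ => (mi i).comp (hT.mp (g i)).measurable
    have m2 : Measurable fun ω => ∏ i, f i (fun p => fam T ξ p (T (g i) ω)) :=
      Finset.measurable_prod _ fun i _ => (mf i).comp (hT.mp (g i)).measurable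
    have i1 : Integrable (fun ω => ∏ i, ind (B i) (T (g i) ω)) μ :=
      integrable_bdd m1 (C := 1) fun ω => by
        rw [Finset.abs_prod]
        exact Finset.prod_le_one (fun i _ => abs_nonneg _) fun i _ => abs_ind_le _ _
    have i2 : Integrable (fun ω => ∏ i, f i (fun p => fam T ξ p (T (g i) ω))) μ :=
      integrable_bdd m2 (C := 1) fun ω => by
        rw [Finset.abs_prod]
        exact Finset.prod_le_one (fun i _ => abs_nonneg _) fun i _ => (hf i).bdd _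
    have i3 : ∀ i, Integrable (fun ω => |ind (B i) (T (g i) ω) -
        f i (fun p => fam T ξ p (T (g i) ω))|) μ := fun i =>
      integrable_bdd ((md i).comp (hT.mp (g i)).measurable) fun ω => bd i _
    rw [← integral_sub i1 i2]
    calc |∫ ω, (∏ i, ind (B i) (T (g i) ω) - ∏ i, f i (fun p => fam T ξ p (T (g i) ω))) ∂μ|
        ≤ ∫ ω, |∏ i, ind (B i) (T (g i) ω) - ∏ i, f i (fun p => fam T ξ p (T (g i) ω))| ∂μ :=
          abs_integral_le_integral_abs
      _ ≤ ∫ ω, ∑ i, |ind (B i) (T (g i) ω) - f i (fun p => fam T ξ p (T (g i) ω))| ∂μ := by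
          refine integral_mono_of_nonneg (Eventually.of_forall fun ω => abs_nonneg _)
            (integrable_finsetSum _ fun i _ => i3 i) (Eventually.of_forall fun ω => ?_)
          exact prod_diff _ _ _ (fun i => abs_ind_le _ _) fun i => (hf i).bdd _
      _ = ∑ i, ∫ ω, |ind (B i) (T (g i) ω) - f i (fun p => fam T ξ p (T (g i) ω))| ∂μ :=
          integral_finsetSum _ fun i _ => i3 i
      _ ≤ ∑ _i : Fin k, η := by
          refine Finset.sum_le_sum fun i _ => ?_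
          rw [int_comp hT (g i) (md i)]
          exact he i
      _ = k * η := by rw [Finset.sum_const, Finset.card_univ, Fintype.card_fin, nsmul_eq_mul]
  have h4 : |∏ i, ∫ ω, f i (fun p => fam T ξ p ω) ∂μ - ∏ i, μ.real (B i)| ≤ k * η := by
    have h5 := prod_diff Finset.univ (fun i => ∫ ω, f i (fun p => fam T ξ p ω) ∂μ)
      (fun i => μ.real (B i)) (fun i => abs_integral_le fun ω => (hf i).bdd _) (fun i => by
        rw [abs_of_nonneg measureReal_nonneg]
        exact measureReal_le_one)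
    refine h5.trans ?_
    calc ∑ i, |∫ ω, f i (fun p => fam T ξ p ω) ∂μ - μ.real (B i)| ≤ ∑ _i : Fin k, η := by
          refine Finset.sum_le_sum fun i _ => ?_
          have i1 : Integrable (fun ω => f i (fun p => fam T ξ p ω)) μ :=
            integrable_bdd (mf i) fun ω => (hf i).bdd _
          have i2 : Integrable (fun ω => ind (B i) ω) μ := integrable_bdd (mi i) (abs_ind_le _)
          rw [← integral_ind (hB i), ← integral_sub i1 i2]
          refine abs_integral_le_integral_abs.trans (le_trans (le_of_eq ?_) (he i))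
          congr 1
          funext ω
          rw [abs_sub_comm]
      _ = k * η := by rw [Finset.sum_const, Finset.card_univ, Fintype.card_fin, nsmul_eq_mul]
  have h6 : (k : ℝ) * η ≤ ε / 3 := by
    rw [hη, mul_div_assoc', div_le_div_iff₀ (by positivity) (by norm_num)]
    nlinarith
  rw [e1]
  calc |∫ ω, ∏ i, ind (B i) (T (g i) ω) ∂μ - ∏ i, μ.real (B i)|
      = |(∫ ω, ∏ i, ind (B i) (T (g i) ω) ∂μ -
          ∫ ω, ∏ i, f i (fun p => fam T ξ p (T (g i) ω)) ∂μ) +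
        (∫ ω, ∏ i, f i (fun p => fam T ξ p (T (g i) ω)) ∂μ -
          ∏ i, ∫ ω, f i (fun p => fam T ξ p ω) ∂μ) +
        (∏ i, ∫ ω, f i (fun p => fam T ξ p ω) ∂μ - ∏ i, μ.real (B i))| := by
        congr 1
        ring
    _ ≤ |(∫ ω, ∏ i, ind (B i) (T (g i) ω) ∂μ -
          ∫ ω, ∏ i, f i (fun p => fam T ξ p (T (g i) ω)) ∂μ)| +
        |(∫ ω, ∏ i, f i (fun p => fam T ξ p (T (g i) ω)) ∂μ -
          ∏ i, ∫ ω, f i (fun p => fam T ξ p ω) ∂μ)| +
        |(∏ i, ∫ ω, f i (fun p => fam T ξ p ω) ∂μ - ∏ i, μ.real (B i))| := abs_add_three _ _ _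
    _ < ε := by linarith

end Main

end Vale.Agent.P102
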