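import Vale.Agent.P102.Dens

/-!
P102: mixing of order two implies mixing of all orders for associated generators.
-/

namespace Vale.Agent.P102

open MeasureTheory ProbabilityTheory Filter Topology

section Bdd

variable {Ω : Type*} [mΩ : MeasurableSpace Ω] {μ : Measure Ω} [IsProbabilityMeasure μ]

theorem abs_integral_le {a : Ω → ℝ} {P : ℝ} (ha : ∀ ω, |a ω| ≤ P) : |∫ ω, a ω ∂μ| ≤ P := by
  have h := norm_integral_le_of_norm_le_const (μ := μ) (f := a) (C := P)
    (Eventually.of_forall fun ω => by rw [Real.norm_eq_abs]; exact ha ω)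
  rw [Real.norm_eq_abs] at h
  simpa using h

theorem abs_cov_le {a b : Ω → ℝ} {P Q : ℝ} (ha : ∀ ω, |a ω| ≤ P) (hb : ∀ ω, |b ω| ≤ Q) :
    |cov[a, b; μ]| ≤ 4 * Q * P := by
  have hne : Nonempty Ω := nonempty_of_isProbabilityMeasure μ
  have hP : 0 ≤ P := (abs_nonneg _).trans (ha (Classical.arbitrary Ω))
  have hQ : 0 ≤ Q := (abs_nonneg _).trans (hb (Classical.arbitrary Ω))
  unfold covariance
  have h1 := abs_integral_le (μ := μ) ha
  have h2 := abs_integral_le (μ := μ) hb
  have e : 4 * Q * P = (P + P) * (Q + Q) := by ring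
  rw [e]
  refine abs_integral_le fun ω => ?_
  rw [abs_mul]
  refine mul_le_mul ?_ ?_ (abs_nonneg _) (by positivity)
  · exact (abs_sub _ _).trans (add_le_add (ha ω) h1)
  · exact (abs_sub _ _).trans (add_le_add (hb ω) h2)

/-- bounded measurable functions are uniformly approximated by simple functions -/
theorem exists_simple {u : Ω → ℝ} (hu : Measurable u) {C : ℝ} (hC : ∀ ω, |u ω| ≤ C) {δ : ℝ}
    (hδ : 0 < δ) : ∃ (s : Finset ℤ) (c : ℤ → ℝ) (A : ℤ → Set Ω), (∀ m, MeasurableSet (A m)) ∧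
      ∀ ω, |u ω - ∑ m ∈ s, c m * ind (A m) ω| ≤ δ := by
  refine ⟨Finset.Icc ⌊-C / δ⌋ ⌊C / δ⌋, fun m => m * δ, fun m => {ω | ⌊u ω / δ⌋ = m}, fun m => ?_,
    fun ω => ?_⟩
  · have h1 : Measurable fun ω => ⌊u ω / δ⌋ := (hu.div_const δ).floor
    exact h1 (measurableSet_singleton m)
  · have hmem : ⌊u ω / δ⌋ ∈ Finset.Icc ⌊-C / δ⌋ ⌊C / δ⌋ := by
      rw [Finset.mem_Icc]
      obtain ⟨h1, h2⟩ := abs_le.1 (hC ω)
      exact ⟨Int.floor_le_floor (div_le_div_of_nonneg_right h1 hδ.le),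
        Int.floor_le_floor (div_le_div_of_nonneg_right h2 hδ.le)⟩
    have e : ∑ m ∈ Finset.Icc ⌊-C / δ⌋ ⌊C / δ⌋, (m : ℝ) * δ * ind {ω | ⌊u ω / δ⌋ = m} ω =
        (⌊u ω / δ⌋ : ℝ) * δ := by
      rw [Finset.sum_eq_single_of_mem _ hmem]
      · have : ind {ω' | ⌊u ω' / δ⌋ = ⌊u ω / δ⌋} ω = 1 :=
          Set.indicator_of_mem (show ω ∈ {ω' | ⌊u ω' / δ⌋ = ⌊u ω / δ⌋} from rfl) _
        rw [this, mul_one]
      · intro m _ hm
        have hω : ω ∉ {ω' | ⌊u ω' / δ⌋ = m} := fun h' => hm h'.symm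
        have : ind {ω' | ⌊u ω' / δ⌋ = m} ω = 0 := Set.indicator_of_notMem hω _
        rw [this, mul_zero]
    rw [e]
    have h1 := Int.floor_le (u ω / δ)
    have h2 := Int.lt_floor_add_one (u ω / δ)
    rw [le_div_iff₀ hδ] at h1
    rw [div_lt_iff₀ hδ] at h2
    rw [abs_le]
    constructor
    · linarith
    · linarith

theorem lin_tendsto {I : Type*} {l : Filter I} (Φ : I → (Ω → ℝ) → ℝ) (K : ℝ) (hK : 0 ≤ K)
    (hadd : ∀ g u v, MemLp u 2 μ → MemLp v 2 μ → Φ g (u + v) = Φ g u + Φ g v)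
    (hsmul : ∀ g (c : ℝ) u, Φ g (c • u) = c * Φ g u)
    (hb : ∀ g (u : Ω → ℝ) (P : ℝ), (∀ ω, |u ω| ≤ P) → |Φ g u| ≤ K * P)
    (h : ∀ A, MeasurableSet A → Tendsto (fun g => Φ g (ind A)) l (𝓝 0)) {u : Ω → ℝ}
    (hu : Measurable u) {C : ℝ} (hC : ∀ ω, |u ω| ≤ C) : Tendsto (fun g => Φ g u) l (𝓝 0) := by
  have hsum : ∀ (s : Finset ℤ) (c : ℤ → ℝ) (A : ℤ → Set Ω), (∀ m, MeasurableSet (A m)) →
      (∀ g, Φ g (fun ω => ∑ m ∈ s, c m * ind (A m) ω) = ∑ m ∈ s, c m * Φ g (ind (A m))) := by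
    intro s c A hA g
    classical
    induction s using Finset.induction_on with
    | empty =>
      have h0 := hsmul g 0 (ind (A 0))
      rw [zero_mul, zero_smul] at h0
      simp only [Finset.sum_empty]
      exact h0
    | insert m s hm ih =>
      have e : (fun ω => ∑ m' ∈ insert m s, c m' * ind (A m') ω) =
          c m • ind (A m) + fun ω => ∑ m' ∈ s, c m' * ind (A m') ω := by
        funext ω
        rw [Finset.sum_insert hm]
        rfl
      rw [e, hadd, hsmul, ih, Finset.sum_insert hm]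
      · exact (memLp_of_bdd (measurable_ind (hA m)) (abs_ind_le _)).const_smul _
      · exact memLp_finsetSum s fun m' _ =>
          (memLp_of_bdd (measurable_ind (hA m')) (abs_ind_le _)).const_mul _
  rw [Metric.tendsto_nhds]
  intro ε hε
  obtain ⟨s, c, A, hA, hs⟩ := exists_simple hu hC (δ := ε / (2 * (K + 1))) (by positivity)
  have h1 : Tendsto (fun g => Φ g (fun ω => ∑ m ∈ s, c m * ind (A m) ω)) l (𝓝 0) := by
    simp only [hsum s c A hA]
    have h2 : Tendsto (fun g => ∑ m ∈ s, c m * Φ g (ind (A m))) l (𝓝 (∑ m ∈ s, c m * 0)) :=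
      tendsto_finsetSum s fun m _ => (h (A m) (hA m)).const_mul (c m)
    simpa using h2
  rw [Metric.tendsto_nhds] at h1
  filter_upwards [h1 (ε / 2) (half_pos hε)] with g hg
  rw [dist_zero_right, Real.norm_eq_abs] at hg ⊢
  set w : Ω → ℝ := fun ω => ∑ m ∈ s, c m * ind (A m) ω with hw
  have lw : MemLp w 2 μ := memLp_finsetSum s fun m' _ =>
    (memLp_of_bdd (measurable_ind (hA m')) (abs_ind_le _)).const_mul _
  have lu : MemLp u 2 μ := memLp_of_bdd hu hC
  have e : u = w + (u - w) := by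
    funext ω
    simp
  rw [e, hadd g w (u - w) lw (lu.sub lw)]
  have h3 : |Φ g (u - w)| ≤ K * (ε / (2 * (K + 1))) := hb g _ _ fun ω => hs ω
  have h4 : K * (ε / (2 * (K + 1))) < ε / 2 := by
    rw [mul_div_assoc', div_lt_div_iff₀ (by positivity) (by positivity)]
    nlinarith
  calc |Φ g w + Φ g (u - w)| ≤ |Φ g w| + |Φ g (u - w)| := abs_add_le _ _
    _ < ε / 2 + ε / 2 := by linarith
    _ = ε := add_halves ε

end Bdd

section Act

variable {G Ω : Type*} [Group G] [mΩ : MeasurableSpace Ω] {μ : Measure Ω} [IsProbabilityMeasure μ]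
  {T : G → Ω → Ω}

omit [IsProbabilityMeasure μ] in
theorem int_comp (hT : IsAction μ T) (h : G) {u : Ω → ℝ} (hu : Measurable u) :
    ∫ ω, u (T h ω) ∂μ = ∫ ω, u ω ∂μ := by
  have h1 := (hT.mp h).map_eq
  have h2 := integral_map (μ := μ) (f := u) (hT.mp h).measurable.aemeasurable
    hu.aestronglyMeasurable
  rw [h1] at h2
  exact h2.symm

omit [IsProbabilityMeasure μ] in
theorem cov_comp (hT : IsAction μ T) (h : G) {a b : Ω → ℝ} (ha : Measurable a)
    (hb : Measurable b) :
    cov[fun ω => a (T h ω), fun ω => b (T h ω); μ] = cov[a, b; μ] := by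
  unfold covariance
  rw [int_comp hT h ha, int_comp hT h hb]
  exact int_comp hT h (u := fun ω => (a ω - ∫ x, a x ∂μ) * (b ω - ∫ x, b x ∂μ))
    ((ha.sub_const _).mul (hb.sub_const _))

theorem cov_ind (hT : IsAction μ T) (g : G) {A B : Set Ω} (hA : MeasurableSet A)
    (hB : MeasurableSet B) :
    cov[fun ω => ind A (T g ω), ind B; μ] = μ.real (T g ⁻¹' A ∩ B) - μ.real A * μ.real B := by
  have hA' : MeasurableSet (T g ⁻¹' A) := (hT.mp g).measurable hA
  have e : (fun ω => ind A (T g ω)) = ind (T g ⁻¹' A) := rfl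
  rw [e, covariance_eq_sub (memLp_of_bdd (measurable_ind hA') (abs_ind_le _))
    (memLp_of_bdd (measurable_ind hB) (abs_ind_le _)), integral_ind hA', integral_ind hB]
  have e2 : ind (T g ⁻¹' A) * ind B = ind (T g ⁻¹' A ∩ B) := by
    funext ω
    unfold ind
    by_cases h1 : ω ∈ T g ⁻¹' A <;> by_cases h2 : ω ∈ B <;> simp [h1, h2]
  rw [e2, integral_ind (hA'.inter hB), (hT.mp g).measureReal_preimage hA.nullMeasurableSet]

/-- mixing for bounded measurable functions -/
theorem mix_fun (hT : IsAction μ T) (hmix : MixingOrder μ T 2) {u v : Ω → ℝ}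
    (hu : Measurable u) {C : ℝ} (hC : ∀ ω, |u ω| ≤ C) (hv : Measurable v) {D : ℝ}
    (hD : ∀ ω, |v ω| ≤ D) :
    Tendsto (fun g => cov[fun ω => u (T g ω), v; μ]) cofinite (𝓝 0) := by
  have hne : Nonempty Ω := nonempty_of_isProbabilityMeasure μ
  have hC0 : 0 ≤ C := (abs_nonneg _).trans (hC (Classical.arbitrary Ω))
  have lcomp : ∀ g (w : Ω → ℝ), MemLp w 2 μ → MemLp (fun ω => w (T g ω)) 2 μ := fun g w hw =>
    hw.comp_measurePreserving (hT.mp g)
  -- indicators
  have hind : ∀ A B, MeasurableSet A → MeasurableSet B →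
      Tendsto (fun g => cov[fun ω => ind A (T g ω), ind B; μ]) cofinite (𝓝 0) := by
    intro A B hA hB
    rw [Metric.tendsto_nhds]
    intro ε hε
    obtain ⟨F, hF⟩ := hmix ![A, B] (by
      intro i
      fin_cases i
      · exact hA
      · exact hB) ε hε
    have h1 : ∀ᶠ g in (cofinite : Filter G), g ∉ F ∧ g⁻¹ ∉ F := by
      have h2 : ∀ᶠ g in (cofinite : Filter G), g ∉ F := F.finite_toSet.compl_mem_cofinite
      have h3 : ∀ᶠ g in (cofinite : Filter G), g⁻¹ ∉ F := by
        have : ({g : G | g⁻¹ ∈ F}).Finite :=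
          F.finite_toSet.preimage (inv_injective.injOn)
        exact this.compl_mem_cofinite
      exact h2.and h3
    filter_upwards [h1] with g hg
    have h2 := hF ![g, 1] (by
      intro i j hij
      fin_cases i <;> fin_cases j
      · exact absurd rfl hij
      · simpa using hg.1
      · simpa using hg.2
      · exact absurd rfl hij)
    rw [dist_zero_right, Real.norm_eq_abs, cov_ind hT g hA hB]
    have e1 : (⋂ i : Fin 2, T ((![g, 1] : Fin 2 → G) i) ⁻¹' (![A, B] : Fin 2 → Set Ω) i) =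
        T g ⁻¹' A ∩ B := by
      ext ω
      simp only [Set.mem_iInter, Fin.forall_fin_two, Set.mem_inter_iff, Set.mem_preimage]
      simp [hT.one]
    rw [e1, Fin.prod_univ_two] at h2
    exact h2
  -- first variable
  have h1 : ∀ B, MeasurableSet B →
      Tendsto (fun g => cov[fun ω => u (T g ω), ind B; μ]) cofinite (𝓝 0) := by
    intro B hB
    refine lin_tendsto (μ := μ) (fun g w => cov[fun ω => w (T g ω), ind B; μ]) (4 * 1)
      (by norm_num) ?_ ?_ ?_ (fun A hA => hind A B hA hB) hu hC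
    · intro g w w' hw hw'
      exact covariance_add_left (lcomp g w hw) (lcomp g w' hw')
        (memLp_of_bdd (measurable_ind hB) (abs_ind_le _))
    · intro g c w
      exact covariance_const_mul_left c
    · intro g w P hw
      exact abs_cov_le (fun ω => hw _) (abs_ind_le _)
  refine lin_tendsto (μ := μ) (fun g w => cov[fun ω => u (T g ω), w; μ]) (4 * C)
    (by positivity) ?_ ?_ ?_ h1 hv hD
  · intro g w w' hw hw'
    exact covariance_add_right (lcomp g u (memLp_of_bdd hu hC)) hw hw'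
  · intro g c w
    exact covariance_smul_right c
  · intro g w P hw
    rw [covariance_comm]
    exact abs_cov_le hw (fun ω => hC _)

end Act

end Vale.Agent.P102
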