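import Vale.Agent.P102.Int

/-!
P102: unbounded generators.
-/

namespace Vale.Agent.P102

open MeasureTheory ProbabilityTheory Filter Topology

variable {ι Ω : Type*} [mΩ : MeasurableSpace Ω] {μ : Measure Ω} {X : ι → Ω → ℝ}

theorem pos_arctan (h : PosAssoc μ X) : PosAssoc μ (fun i ω => Real.arctan (X i ω)) := by
  intro s t hst f g hf hg hf' hg' hC hD
  obtain ⟨C, hC⟩ := hC
  obtain ⟨D, hD⟩ := hD
  exact h s t hst (fun x => f fun i => Real.arctan (x i)) (fun x => g fun i => Real.arctan (x i))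
    (hf.comp (continuous_pi fun i => Real.continuous_arctan.comp (continuous_apply i)))
    (hg.comp (continuous_pi fun i => Real.continuous_arctan.comp (continuous_apply i)))
    (fun x y hxy => hf' fun i => Real.arctan_strictMono.monotone (hxy i))
    (fun x y hxy => hg' fun i => Real.arctan_strictMono.monotone (hxy i))
    ⟨C, fun x => hC _⟩ ⟨D, fun x => hD _⟩

theorem neg_arctan (h : NegAssoc μ X) : NegAssoc μ (fun i ω => Real.arctan (X i ω)) := by
  intro s t hst f g hf hg hf' hg' hC hD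
  obtain ⟨C, hC⟩ := hC
  obtain ⟨D, hD⟩ := hD
  exact h s t hst (fun x => f fun i => Real.arctan (x i)) (fun x => g fun i => Real.arctan (x i))
    (hf.comp (continuous_pi fun i => Real.continuous_arctan.comp (continuous_apply i)))
    (hg.comp (continuous_pi fun i => Real.continuous_arctan.comp (continuous_apply i)))
    (fun x y hxy => hf' fun i => Real.arctan_strictMono.monotone (hxy i))
    (fun x y hxy => hg' fun i => Real.arctan_strictMono.monotone (hxy i))
    ⟨C, fun x => hC _⟩ ⟨D, fun x => hD _⟩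

theorem gen_arctan (h : Generates μ X) : Generates μ (fun i ω => Real.arctan (X i ω)) := by
  have e : (⨆ i, MeasurableSpace.comap (fun ω => Real.arctan (X i ω)) inferInstance) =
      ⨆ i, MeasurableSpace.comap (X i) inferInstance := by
    congr 1
    funext i
    have h1 : MeasurableEmbedding Real.arctan :=
      Real.continuous_arctan.measurableEmbedding Real.arctan_injective
    have h2 : (fun ω => Real.arctan (X i ω)) = Real.arctan ∘ X i := rfl
    rw [h2, ← MeasurableSpace.comap_comp, h1.comap_eq]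
  intro A hA
  rw [e]
  exact h A hA

theorem abs_arctan_le (x : ℝ) : |Real.arctan x| ≤ Real.pi / 2 :=
  abs_le.2 ⟨(Real.neg_pi_div_two_lt_arctan x).le, (Real.arctan_lt_pi_div_two x).le⟩

/-- actions of groups, arbitrary generators -/
theorem main_unb {G J : Type*} [Group G] [IsProbabilityMeasure μ] {T : G → Ω → Ω}
    {ξ : J → Ω → ℝ} (hT : IsAction μ T) (hξ : ∀ j, Measurable (ξ j))
    (hgen : Generates μ (fam T ξ)) (hA : PosAssoc μ (fam T ξ) ∨ NegAssoc μ (fam T ξ))
    (hmix : MixingOrder μ T 2 ∨ ((∀ j, ∃ C : ℝ, ∀ ω, |ξ j ω| ≤ C) ∧ Decorrelated μ T ξ))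
    (k : ℕ) : MixingOrder μ T k := by
  rcases hmix with h | ⟨hb, h⟩
  · have hξ' : ∀ j, Measurable (fun ω => Real.arctan (ξ j ω)) := fun j =>
      Real.measurable_arctan.comp (hξ j)
    have hb' : ∀ j, ∃ C : ℝ, ∀ ω, |Real.arctan (ξ j ω)| ≤ C := fun j =>
      ⟨Real.pi / 2, fun ω => abs_arctan_le _⟩
    exact main (ξ := fun j ω => Real.arctan (ξ j ω)) hT (decor_of_mixing hT h hξ' hb') hξ' hb'
      (gen_arctan hgen) (hA.imp pos_arctan neg_arctan) k
  · exact main hT h hξ hb hgen hA k

/-- one transformation, arbitrary generators -/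
theorem mainZ_unb [IsProbabilityMeasure μ] {T : Ω ≃ᵐ Ω} (hT : MeasurePreserving T μ μ)
    {J : Type*} {ξ : J → Ω → ℝ} (hξ : ∀ j, Measurable (ξ j))
    (hgen : Generates μ (fam (powers T) ξ))
    (hA : PosAssoc μ (fam (powers T) ξ) ∨ NegAssoc μ (fam (powers T) ξ))
    (hmix : MixingOrderZ μ T 2 ∨
      ((∀ j, ∃ C : ℝ, ∀ ω, |ξ j ω| ≤ C) ∧ Decorrelated μ (powers T) ξ)) (k : ℕ) :
    MixingOrderZ μ T k :=
  mixingZ_of (main_unb (T := act T) (isAction_act hT) hξ hgen hA (hmix.imp mixing_of_Z id) k)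

end Vale.Agent.P102
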